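import Mathlib

open Finset Real

namespace Vale.Agent.P004H.H212

/-- partial sums of `μ(n)/n` -/
noncomputable def G (N : ℕ) : ℝ := ∑ d ∈ Icc 1 N, (ArithmeticFunction.moebius d : ℝ) / d

/-- partial sums of `Λ(n)/n` -/
noncomputable def L (N : ℕ) : ℝ := ∑ k ∈ Icc 1 N, ArithmeticFunction.vonMangoldt k / k

/-- partial sums of `Λ(n)` -/
noncomputable def psi (N : ℕ) : ℝ := ∑ k ∈ Icc 1 N, ArithmeticFunction.vonMangoldt k

/-- the prime number theorem with error `N / (log N)^A` for every `A` -/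
def PsiErr : Prop := ∀ A : ℕ, ∃ x0 : ℕ, ∀ N : ℕ, x0 ≤ N → |psi N - N| ≤ N / (Real.log N) ^ A

lemma Icc_one (N : ℕ) : Icc 1 N = Ioc 0 N := by
  ext x; simp only [mem_Icc, mem_Ioc]; omega

lemma G_zero : G 0 = 0 := by simp [G]

lemma G_succ (N : ℕ) :
    G (N + 1) = G N + (ArithmeticFunction.moebius (N + 1) : ℝ) / ((N + 1 : ℕ) : ℝ) := by
  unfold G
  rw [Finset.sum_Icc_succ_top (by omega)]

lemma L_succ (N : ℕ) :
    L (N + 1) = L N + ArithmeticFunction.vonMangoldt (N + 1) / ((N + 1 : ℕ) : ℝ) := by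
  unfold L
  rw [Finset.sum_Icc_succ_top (by omega)]

lemma psi_succ (N : ℕ) :
    psi (N + 1) = psi N + ArithmeticFunction.vonMangoldt (N + 1) := by
  unfold psi
  rw [Finset.sum_Icc_succ_top (by omega)]

lemma psi_nonneg (N : ℕ) : 0 ≤ psi N :=
  Finset.sum_nonneg fun _ _ => ArithmeticFunction.vonMangoldt_nonneg

lemma L_mono {M N : ℕ} (h : M ≤ N) : L M ≤ L N := by
  unfold L
  apply Finset.sum_le_sum_of_subset_of_nonneg
  · exact Finset.Icc_subset_Icc le_rfl h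
  · intro i _ _
    exact div_nonneg ArithmeticFunction.vonMangoldt_nonneg (Nat.cast_nonneg _)

lemma L_nonneg (N : ℕ) : 0 ≤ L N :=
  Finset.sum_nonneg fun _ _ => div_nonneg ArithmeticFunction.vonMangoldt_nonneg (Nat.cast_nonneg _)

/-- `∑_{d ≤ N} μ(d) ⌊N/d⌋ = 1` -/
lemma sum_moebius_floor {N : ℕ} (hN : 1 ≤ N) :
    ∑ d ∈ Icc 1 N, (ArithmeticFunction.moebius d : ℤ) * ((N / d : ℕ) : ℤ) = 1 := by
  rw [Icc_one]
  have h := ArithmeticFunction.sum_Ioc_mul_zeta_eq_sum (R := ℤ) ArithmeticFunction.moebius N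
  rw [← h, ArithmeticFunction.moebius_mul_coe_zeta]
  rw [Finset.sum_eq_single 1]
  · simp
  · intro b _ hb
    exact ArithmeticFunction.one_apply_ne hb
  · intro h1
    exact absurd (by simp only [mem_Ioc]; omega) h1

lemma abs_moebius_le (d : ℕ) : |(ArithmeticFunction.moebius d : ℝ)| ≤ 1 := by
  have h := ArithmeticFunction.abs_moebius_le_one (n := d)
  exact_mod_cast h

lemma abs_G_le_one (N : ℕ) : |G N| ≤ 1 := by
  rcases Nat.eq_zero_or_pos N with rfl | hN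
  · simp [G_zero]
  have hNR : (0 : ℝ) < N := by exact_mod_cast hN
  have h1 : ∑ d ∈ Icc 1 N, (ArithmeticFunction.moebius d : ℝ) * ((N / d : ℕ) : ℝ) = 1 := by
    have := congrArg (Int.cast : ℤ → ℝ) (sum_moebius_floor hN)
    push_cast at this
    exact this
  have h2 : (N : ℝ) * G N = 1 + ∑ d ∈ Icc 1 N, (ArithmeticFunction.moebius d : ℝ) *
      ((N : ℝ) / d - ((N / d : ℕ) : ℝ)) := by
    rw [← h1, ← Finset.sum_add_distrib, G, Finset.mul_sum]
    refine Finset.sum_congr rfl fun d _ => ?_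
    ring
  obtain ⟨M, rfl⟩ : ∃ M, N = M + 1 := ⟨N - 1, by omega⟩
  have h3 : |∑ d ∈ Icc 1 (M + 1), (ArithmeticFunction.moebius d : ℝ) *
      (((M + 1 : ℕ) : ℝ) / d - (((M + 1) / d : ℕ) : ℝ))| ≤ M := by
    rw [Finset.sum_Icc_succ_top (by omega)]
    have h4 : ((((M + 1 : ℕ) : ℝ)) / ((M + 1 : ℕ) : ℝ) - (((M + 1) / (M + 1) : ℕ) : ℝ)) = 0 := by
      rw [Nat.div_self (by omega), div_self (by positivity)]
      simp
    rw [h4, mul_zero, add_zero]
    refine (Finset.abs_sum_le_sum_abs _ _).trans ?_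
    have h5 : ∀ d ∈ Icc 1 M, |(ArithmeticFunction.moebius d : ℝ) *
      (((M + 1 : ℕ) : ℝ) / d - (((M + 1) / d : ℕ) : ℝ))| ≤ 1 := by
      intro d hd
      have hd1 : 1 ≤ d := (mem_Icc.mp hd).1
      have hdR : (0 : ℝ) < d := by exact_mod_cast hd1
      rw [abs_mul]
      have h6 : |(((M + 1 : ℕ) : ℝ) / d - (((M + 1) / d : ℕ) : ℝ))| ≤ 1 := by
        rw [abs_le]
        have h7 : (((M + 1) / d : ℕ) : ℝ) ≤ ((M + 1 : ℕ) : ℝ) / d := Nat.cast_div_le
        have h8 : ((M + 1 : ℕ) : ℝ) / d < (((M + 1) / d : ℕ) : ℝ) + 1 := by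
          rw [div_lt_iff₀ hdR]
          have := Nat.lt_div_mul_add (a := M + 1) hd1
          have h9 : (M + 1 : ℕ) < ((M + 1) / d + 1) * d := by linarith
          exact_mod_cast h9
        constructor <;> linarith
      calc _ ≤ (1 : ℝ) * 1 := mul_le_mul (abs_moebius_le d) h6 (abs_nonneg _) zero_le_one
        _ = 1 := one_mul 1
    refine (Finset.sum_le_sum h5).trans ?_
    simp
  have h10 : |((M + 1 : ℕ) : ℝ) * G (M + 1)| ≤ ((M + 1 : ℕ) : ℝ) := by
    rw [h2]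
    refine (abs_add_le _ _).trans ?_
    rw [abs_one]
    push_cast at h3 ⊢
    linarith
  rw [abs_mul, abs_of_pos hNR] at h10
  nlinarith [h10]

end Vale.Agent.P004H.H212
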