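import Vale.Agent.P004H.H212.Mu1

open Finset Real Filter Topology

namespace Vale.Agent.P004H.H212

/-! ### Elementary inequalities -/

lemma log_nn (n : ℕ) : 0 ≤ Real.log n := Real.log_natCast_nonneg n

lemma one_le_ell (n : ℕ) : (1 : ℝ) ≤ 1 + Real.log n := by linarith [log_nn n]

lemma ell_pos (n : ℕ) : (0 : ℝ) < 1 + Real.log n := by linarith [log_nn n]

/-- powers of the logarithm are `O(n)` -/
lemma ell_pow_le (A : ℕ) : ∃ C : ℝ, 0 < C ∧ ∀ n : ℕ, 1 ≤ n → (1 + Real.log n) ^ A ≤ C * n := by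
  refine ⟨A.factorial * Real.exp 1, by positivity, ?_⟩
  intro n hn
  have hnR : (0 : ℝ) < n := by exact_mod_cast hn
  have h1 := Real.pow_div_factorial_le_exp (1 + Real.log n) (ell_pos n).le A
  rw [div_le_iff₀ (by positivity), Real.exp_add, Real.exp_log hnR] at h1
  linarith [h1]

/-- powers of the logarithm are `O(√n)` -/
lemma ell_pow_le_sqrt (A : ℕ) : ∃ C : ℝ, 0 < C ∧ ∀ n : ℕ, 1 ≤ n →
    (1 + Real.log n) ^ A ≤ C * Real.sqrt n := by
  obtain ⟨C, hC, h⟩ := ell_pow_le (2 * A)
  refine ⟨Real.sqrt C, Real.sqrt_pos.mpr hC, ?_⟩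
  intro n hn
  have h1 := h n hn
  rw [← Real.sqrt_mul hC.le]
  apply Real.le_sqrt_of_sq_le
  rw [← pow_mul, mul_comm A 2]
  exact h1

/-- one telescoping term -/
lemma tele_term (k : ℕ) (hk : 1 ≤ k) :
    1 / (((k : ℝ) + 1) * (1 + Real.log k) ^ 2) ≤
      2 * (1 / (1 + Real.log k) - 1 / (1 + Real.log ((k : ℝ) + 1))) := by
  have hkR : (0 : ℝ) < k := by exact_mod_cast hk
  have hk1 : (1 : ℝ) ≤ k := by exact_mod_cast hk
  have ha : 0 < 1 + Real.log k := ell_pos k
  have hb : 0 < 1 + Real.log ((k : ℝ) + 1) := by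
    have := Real.log_nonneg (by linarith : (1 : ℝ) ≤ (k : ℝ) + 1)
    linarith
  have h1 : 1 / ((k : ℝ) + 1) ≤ Real.log ((k : ℝ) + 1) - Real.log k := by
    have h2 := Real.one_sub_inv_le_log_of_pos (by positivity : (0 : ℝ) < ((k : ℝ) + 1) / k)
    rw [Real.log_div (by positivity) (by positivity)] at h2
    have h3 : 1 - (((k : ℝ) + 1) / k)⁻¹ = 1 / ((k : ℝ) + 1) := by
      field_simp
      ring
    linarith
  have h4 : 1 + Real.log ((k : ℝ) + 1) ≤ 2 * (1 + Real.log k) := by
    have h5 : Real.log ((k : ℝ) + 1) ≤ Real.log (2 * k) :=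
      Real.log_le_log (by positivity) (by linarith)
    rw [Real.log_mul (by norm_num) (by positivity)] at h5
    have h6 := Real.log_two_lt_d9
    have h7 := log_nn k
    linarith
  have h8 : 1 / (1 + Real.log k) - 1 / (1 + Real.log ((k : ℝ) + 1)) =
      (Real.log ((k : ℝ) + 1) - Real.log k) / ((1 + Real.log k) * (1 + Real.log ((k : ℝ) + 1))) := by
    field_simp
    ring
  rw [h8]
  have h9 : 1 / ((1 + Real.log k) ^ 2) ≤
      2 / ((1 + Real.log k) * (1 + Real.log ((k : ℝ) + 1))) := by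
    rw [div_le_div_iff₀ (by positivity) (by positivity)]
    nlinarith
  calc 1 / (((k : ℝ) + 1) * (1 + Real.log k) ^ 2)
      = (1 / ((k : ℝ) + 1)) * (1 / (1 + Real.log k) ^ 2) := by
        rw [one_div_mul_one_div]
    _ ≤ (Real.log ((k : ℝ) + 1) - Real.log k) *
        (2 / ((1 + Real.log k) * (1 + Real.log ((k : ℝ) + 1)))) := by
        apply mul_le_mul h1 h9 (by positivity)
        have : 0 < 1 / ((k : ℝ) + 1) := by positivity
        linarith
    _ = _ := by ring

/-- `∑_{M ≤ k < N} 1/((k+1)(1+log k)^2) ≤ 2` -/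
lemma tele_sum (M N : ℕ) (hM : 1 ≤ M) (hMN : M ≤ N) :
    ∑ k ∈ Ico M N, 1 / (((k : ℝ) + 1) * (1 + Real.log k) ^ 2) ≤
      2 * (1 / (1 + Real.log M) - 1 / (1 + Real.log N)) := by
  induction N, hMN using Nat.le_induction with
  | base => simp
  | succ n hn ih =>
    rw [Finset.sum_Ico_succ_top hn]
    have h := tele_term n (hM.trans hn)
    push_cast
    linarith

lemma tele_sum' (M N : ℕ) (hM : 1 ≤ M) :
    ∑ k ∈ Ico M N, 1 / (((k : ℝ) + 1) * (1 + Real.log k) ^ 2) ≤ 2 := by
  rcases le_total M N with h | h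
  · refine (tele_sum M N hM h).trans ?_
    have h1 : 1 / (1 + Real.log M) ≤ 1 := by
      rw [div_le_one (ell_pos M)]
      exact one_le_ell M
    have h2 : 0 < 1 / (1 + Real.log N) := by
      have := ell_pos N
      positivity
    linarith
  · rw [Finset.Ico_eq_empty (by omega)]
    simp

/-! ### The error in the prime number theorem, for all `N` -/

lemma psi_err (hP : PsiErr) (A : ℕ) : ∃ C : ℝ, 0 ≤ C ∧ ∀ N : ℕ, 1 ≤ N →
    |psi N - N| ≤ C * N / (1 + Real.log N) ^ A := by
  obtain ⟨x0, hx0⟩ := hP A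
  set X : ℕ := max x0 3 with hX
  have hX3 : 3 ≤ X := le_max_right _ _
  have hXx : x0 ≤ X := le_max_left _ _
  set D : ℝ := ∑ n ∈ Finset.range X, |psi n - n| * (1 + Real.log n) ^ A with hD
  have hD0 : 0 ≤ D := by
    apply Finset.sum_nonneg
    intro i _
    have := ell_pos i
    positivity
  refine ⟨max (2 ^ A) D, le_trans hD0 (le_max_right _ _), ?_⟩
  intro N hN
  have hNR : (1 : ℝ) ≤ N := by exact_mod_cast hN
  have hl := ell_pos N
  rcases lt_or_ge N X with h | h
  · rw [le_div_iff₀ (by positivity)]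
    have h1 : |psi N - N| * (1 + Real.log N) ^ A ≤ D := by
      apply Finset.single_le_sum (f := fun n : ℕ => |psi n - n| * (1 + Real.log n) ^ A)
      · intro i _
        have := ell_pos i
        positivity
      · exact Finset.mem_range.mpr h
    have h2 : D ≤ max (2 ^ A) D := le_max_right _ _
    have h3 : max (2 ^ A) D ≤ max (2 ^ A) D * N := by
      nlinarith [hD0.trans h2]
    linarith
  · have h1 := hx0 N (hXx.trans h)
    have h3 : (3 : ℝ) ≤ N := by exact_mod_cast hX3.trans h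
    have hlog : 1 ≤ Real.log N := by
      rw [Real.le_log_iff_exp_le (by linarith)]
      have := Real.exp_one_lt_d9
      linarith
    refine h1.trans ?_
    rw [div_le_div_iff₀ (by positivity) (by positivity)]
    have h4 : (1 + Real.log N) ^ A ≤ 2 ^ A * Real.log N ^ A := by
      rw [← mul_pow]
      exact pow_le_pow_left₀ (by linarith) (by linarith) A
    have h5 : (2 : ℝ) ^ A ≤ max (2 ^ A) D := le_max_left _ _
    have h6 : 0 ≤ Real.log N ^ A := by positivity
    calc (N : ℝ) * (1 + Real.log N) ^ A ≤ N * (2 ^ A * Real.log N ^ A) := by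
          apply mul_le_mul_of_nonneg_left h4 (by linarith)
      _ = 2 ^ A * (N * Real.log N ^ A) := by ring
      _ ≤ max (2 ^ A) D * (N * Real.log N ^ A) := by
          apply mul_le_mul_of_nonneg_right h5 (by positivity)
      _ = _ := by ring

/-! ### Mertens: `L N - log N` converges fast -/

/-- partial summation for `L` -/
lemma L_eq (N : ℕ) (hN : 1 ≤ N) :
    L N = psi N / N + ∑ k ∈ Ico 1 N, psi k / ((k : ℝ) * (k + 1)) := by
  induction N, hN using Nat.le_induction with
  | base => simp [L, psi]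
  | succ n hn ih =>
    have hnR : (0 : ℝ) < n := by exact_mod_cast hn
    rw [L_succ, ih, psi_succ, Finset.sum_Ico_succ_top hn]
    push_cast
    field_simp
    ring

/-- `D N = L N - log N` -/
noncomputable def D (N : ℕ) : ℝ := L N - Real.log N

lemma L_sub_harmonic (N : ℕ) (hN : 1 ≤ N) :
    L N - (harmonic N : ℝ) = (psi N - N) / N +
      ∑ k ∈ Ico 1 N, (psi k - k) / ((k : ℝ) * (k + 1)) := by
  rw [L_eq N hN]
  have h1 : ∀ N : ℕ, 1 ≤ N → (harmonic N : ℝ) = 1 + ∑ k ∈ Ico 1 N, 1 / ((k : ℝ) + 1) := by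
    intro N hN
    induction N, hN using Nat.le_induction with
    | base => simp [harmonic]
    | succ n hn ih =>
      rw [harmonic_succ, Finset.sum_Ico_succ_top hn]
      push_cast
      rw [ih]
      ring
  rw [h1 N hN]
  have hNR : (0 : ℝ) < N := by exact_mod_cast hN
  have h2 : ∑ k ∈ Ico 1 N, (psi k - k) / ((k : ℝ) * (k + 1)) =
      ∑ k ∈ Ico 1 N, psi k / ((k : ℝ) * (k + 1)) - ∑ k ∈ Ico 1 N, 1 / ((k : ℝ) + 1) := by
    rw [← Finset.sum_sub_distrib]
    apply Finset.sum_congr rfl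
    intro k hk
    have hkR : (0 : ℝ) < k := by exact_mod_cast (mem_Ico.mp hk).1
    field_simp
  rw [h2, sub_div, div_self hNR.ne']
  ring

lemma harm_bound (n : ℕ) (hn : 1 ≤ n) :
    0 ≤ (harmonic n : ℝ) - Real.log n - eulerMascheroniConstant ∧
      (harmonic n : ℝ) - Real.log n - eulerMascheroniConstant ≤ 1 / n := by
  have hnR : (0 : ℝ) < n := by exact_mod_cast hn
  have h1 := Real.eulerMascheroniConstant_lt_eulerMascheroniSeq' n
  have h2 := Real.eulerMascheroniSeq_lt_eulerMascheroniConstant n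
  rw [eulerMascheroniSeq', if_neg (by omega)] at h1
  rw [eulerMascheroniSeq] at h2
  have h3 : Real.log ((n : ℝ) + 1) - Real.log n ≤ 1 / n := by
    rw [← Real.log_div (by positivity) (by positivity)]
    have h4 := Real.log_le_sub_one_of_pos (by positivity : (0 : ℝ) < ((n : ℝ) + 1) / n)
    have h5 : ((n : ℝ) + 1) / n - 1 = 1 / n := by field_simp; ring
    linarith
  constructor <;> linarith

lemma D_cauchy (hP : PsiErr) (A : ℕ) : ∃ C : ℝ, 0 ≤ C ∧ ∀ M N : ℕ, 1 ≤ M → M ≤ N →
    |D N - D M| ≤ C / (1 + Real.log M) ^ A := by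
  obtain ⟨C1, hC1, h1⟩ := psi_err hP (A + 2)
  obtain ⟨C2, hC2, h2⟩ := ell_pow_le A
  refine ⟨C2 + 4 * C1, by positivity, ?_⟩
  intro M N hM hMN
  have hN : 1 ≤ N := hM.trans hMN
  have hMR : (1 : ℝ) ≤ M := by exact_mod_cast hM
  have hNR : (1 : ℝ) ≤ N := by exact_mod_cast hN
  have hMNR : (M : ℝ) ≤ N := by exact_mod_cast hMN
  have hlM := ell_pos M
  have hlM1 := one_le_ell M
  have hlN := ell_pos N
  have hlog : Real.log M ≤ Real.log N := Real.log_le_log (by linarith) hMNR
  -- decomposition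
  have e1 : D N - D M = (((harmonic N : ℝ) - Real.log N - eulerMascheroniConstant) -
      ((harmonic M : ℝ) - Real.log M - eulerMascheroniConstant)) + (psi N - N) / N -
      (psi M - M) / M + ∑ k ∈ Ico M N, (psi k - k) / ((k : ℝ) * (k + 1)) := by
    have a1 := L_sub_harmonic N hN
    have a2 := L_sub_harmonic M hM
    have a3 := Finset.sum_Ico_consecutive (fun k : ℕ => (psi k - k) / ((k : ℝ) * (k + 1))) hM hMN
    unfold D
    linarith
  -- the harmonic part
  have b1 := harm_bound N hN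
  have b2 := harm_bound M hM
  have b3 : (1 : ℝ) / N ≤ 1 / M := one_div_le_one_div_of_le (by linarith) hMNR
  have b4 : |((harmonic N : ℝ) - Real.log N - eulerMascheroniConstant) -
      ((harmonic M : ℝ) - Real.log M - eulerMascheroniConstant)| ≤ 1 / M := by
    rw [abs_le]
    constructor <;> linarith [b1.1, b1.2, b2.1, b2.2]
  have b5 : (1 : ℝ) / M ≤ C2 / (1 + Real.log M) ^ A := by
    rw [div_le_div_iff₀ (by linarith) (by positivity)]
    have := h2 M hM
    linarith
  -- the psi parts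
  have c1 : ∀ k : ℕ, M ≤ k → |(psi k - k) / k| ≤ C1 / (1 + Real.log M) ^ A := by
    intro k hk
    have hkR : (1 : ℝ) ≤ k := by exact_mod_cast hM.trans hk
    have hMk : (M : ℝ) ≤ k := by exact_mod_cast hk
    have hlk : Real.log M ≤ Real.log k := Real.log_le_log (by linarith) hMk
    have hlk0 := ell_pos k
    rw [abs_div, abs_of_pos (by linarith : (0 : ℝ) < k)]
    rw [div_le_iff₀ (by linarith)]
    refine (h1 k (hM.trans hk)).trans ?_
    rw [div_le_iff₀ (by positivity)]
    have : (1 + Real.log M) ^ A ≤ (1 + Real.log k) ^ (A + 2) := by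
      calc (1 + Real.log M) ^ A ≤ (1 + Real.log k) ^ A :=
            pow_le_pow_left₀ hlM.le (by linarith) A
        _ ≤ (1 + Real.log k) ^ (A + 2) :=
            pow_le_pow_right₀ (one_le_ell k) (by omega)
    have h5 : C1 * k = (C1 / (1 + Real.log M) ^ A * k) * (1 + Real.log M) ^ A := by
      field_simp
    rw [h5]
    apply mul_le_mul_of_nonneg_left this
    positivity
  have c2 : |∑ k ∈ Ico M N, (psi k - k) / ((k : ℝ) * (k + 1))| ≤
      2 * C1 / (1 + Real.log M) ^ A := by
    refine (Finset.abs_sum_le_sum_abs _ _).trans ?_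
    have h6 : ∀ k ∈ Ico M N, |(psi k - k) / ((k : ℝ) * (k + 1))| ≤
        (C1 / (1 + Real.log M) ^ A) * (1 / (((k : ℝ) + 1) * (1 + Real.log k) ^ 2)) := by
      intro k hk
      have hk1 : M ≤ k := (mem_Ico.mp hk).1
      have hkR : (1 : ℝ) ≤ k := by exact_mod_cast hM.trans hk1
      have hMk : (M : ℝ) ≤ k := by exact_mod_cast hk1
      have hlk : Real.log M ≤ Real.log k := Real.log_le_log (by linarith) hMk
      have hlk0 := ell_pos k
      have h7 := h1 k (hM.trans hk1)
      rw [abs_div, abs_of_pos (by positivity : (0 : ℝ) < (k : ℝ) * (k + 1))]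
      rw [div_le_iff₀ (by positivity)]
      refine h7.trans ?_
      have h8 : (1 + Real.log M) ^ A ≤ (1 + Real.log k) ^ A :=
        pow_le_pow_left₀ hlM.le (by linarith) A
      have h9 : C1 / (1 + Real.log M) ^ A * (1 / (((k : ℝ) + 1) * (1 + Real.log k) ^ 2)) *
          ((k : ℝ) * (k + 1)) = C1 * k / ((1 + Real.log M) ^ A * (1 + Real.log k) ^ 2) := by
        field_simp
      rw [h9]
      apply div_le_div_of_nonneg_left (by positivity) (by positivity)
      rw [pow_add]
      exact mul_le_mul_of_nonneg_right h8 (by positivity)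
    refine (Finset.sum_le_sum h6).trans ?_
    rw [← Finset.mul_sum]
    have h10 := tele_sum' M N hM
    have h11 : 0 ≤ C1 / (1 + Real.log M) ^ A := by positivity
    calc _ ≤ C1 / (1 + Real.log M) ^ A * 2 := mul_le_mul_of_nonneg_left h10 h11
      _ = _ := by ring
  have c3 := c1 N hMN
  have c4 := c1 M le_rfl
  rw [e1]
  have hfin : (C2 + 4 * C1) / (1 + Real.log M) ^ A = C2 / (1 + Real.log M) ^ A +
      C1 / (1 + Real.log M) ^ A + C1 / (1 + Real.log M) ^ A + 2 * C1 / (1 + Real.log M) ^ A := by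
    ring
  rw [hfin]
  have d1 := abs_le.mp b4
  have d2 := abs_le.mp c2
  have d3 := abs_le.mp c3
  have d4 := abs_le.mp c4
  rw [abs_le]
  constructor <;> linarith [d1.1, d1.2, d2.1, d2.2, d3.1, d3.2, d4.1, d4.2]

end Vale.Agent.P004H.H212
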