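import Vale.Agent.P004H.H212.Mu2

open Finset Real Filter Topology

namespace Vale.Agent.P004H.H212

lemma tendsto_const_div_ell (C : ℝ) :
    Tendsto (fun n : ℕ => C / (1 + Real.log n) ^ 1) atTop (𝓝 0) := by
  have h1 : Tendsto (fun n : ℕ => 1 + Real.log n) atTop atTop := by
    apply tendsto_atTop_add_const_left
    exact Real.tendsto_log_atTop.comp tendsto_natCast_atTop_atTop
  simpa using h1.const_div_atTop C

/-- the limit of `L N - log N`, with its error -/
lemma exists_c0 (hP : PsiErr) : ∃ c0 : ℝ, ∀ A : ℕ, ∃ C : ℝ, 0 ≤ C ∧ ∀ M : ℕ, 1 ≤ M →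
    |L M - Real.log M - c0| ≤ C / (1 + Real.log M) ^ A := by
  obtain ⟨C, hC, hc⟩ := D_cauchy hP 1
  have hcau : CauchySeq D := by
    apply Metric.cauchySeq_iff'.mpr
    intro ε hε
    have h1 := (tendsto_const_div_ell C).eventually (gt_mem_nhds hε)
    obtain ⟨N, hN⟩ := (h1.and (eventually_ge_atTop 1)).exists
    refine ⟨N, ?_⟩
    intro n hn
    rw [Real.dist_eq]
    exact lt_of_le_of_lt (hc N n hN.2 hn) hN.1
  obtain ⟨c0, h0⟩ := cauchySeq_tendsto_of_complete hcau
  refine ⟨c0, ?_⟩
  intro A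
  obtain ⟨C', hC', hc'⟩ := D_cauchy hP A
  refine ⟨C', hC', ?_⟩
  intro M hM
  have h2 : Tendsto (fun N : ℕ => |D N - D M|) atTop (𝓝 |c0 - D M|) :=
    (h0.sub_const (D M)).abs
  have h3 : |c0 - D M| ≤ C' / (1 + Real.log M) ^ A := by
    apply le_of_tendsto h2
    filter_upwards [eventually_ge_atTop M] with N hN
    exact hc' M N hM hN
  rw [abs_sub_comm] at h3
  exact h3

/-- the remainder at a real point -/
noncomputable def R (c0 : ℝ) (y : ℝ) : ℝ := L ⌊y⌋₊ - Real.log y - c0

lemma R_bound {c0 : ℝ} {A : ℕ} {C : ℝ} (hC : 0 ≤ C)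
    (h : ∀ M : ℕ, 1 ≤ M → |L M - Real.log M - c0| ≤ C / (1 + Real.log M) ^ A) :
    ∃ C' : ℝ, 0 ≤ C' ∧ ∀ y : ℝ, 1 ≤ y → |R c0 y| ≤ C' / (1 + Real.log y) ^ A := by
  obtain ⟨C2, hC2, h2⟩ := ell_pow_le A
  refine ⟨2 ^ A * (C + C2), by positivity, ?_⟩
  intro y hy
  set M : ℕ := ⌊y⌋₊ with hM
  have hM1 : 1 ≤ M := by
    rw [hM]
    exact Nat.le_floor (by simpa using hy)
  have hMR : (1 : ℝ) ≤ M := by exact_mod_cast hM1
  have hMy : (M : ℝ) ≤ y := Nat.floor_le (by linarith)
  have hyM : y < M + 1 := Nat.lt_floor_add_one y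
  have hl := ell_pos M
  have hly : 0 ≤ Real.log y := Real.log_nonneg hy
  have h3 : Real.log M ≤ Real.log y := Real.log_le_log (by linarith) hMy
  have h4 : Real.log y - Real.log M ≤ 1 / M := by
    rw [← Real.log_div (by positivity) (by positivity)]
    have h5 := Real.log_le_sub_one_of_pos (by positivity : (0 : ℝ) < y / M)
    have h6 : y / M ≤ 1 + 1 / M := by
      rw [div_le_iff₀ (by linarith)]
      have : (1 + 1 / (M : ℝ)) * M = M + 1 := by field_simp
      linarith
    linarith
  have h7 : 1 + Real.log y ≤ 2 * (1 + Real.log M) := by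
    have : (1 : ℝ) / M ≤ 1 := by
      rw [div_le_one (by linarith)]
      exact hMR
    have := log_nn M
    linarith
  have h8 : (1 + Real.log y) ^ A ≤ 2 ^ A * (1 + Real.log M) ^ A := by
    rw [← mul_pow]
    exact pow_le_pow_left₀ (by linarith) h7 A
  have h9 := h M hM1
  have h10 : (1 : ℝ) / M ≤ C2 / (1 + Real.log M) ^ A := by
    rw [div_le_div_iff₀ (by linarith) (by positivity)]
    have := h2 M hM1
    linarith
  have h11 : |R c0 y| ≤ (C + C2) / (1 + Real.log M) ^ A := by
    have h12 : R c0 y = (L M - Real.log M - c0) - (Real.log y - Real.log M) := by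
      unfold R
      rw [← hM]
      ring
    rw [h12, add_div]
    have h13 := abs_le.mp h9
    rw [abs_le]
    have h14 : 0 ≤ C2 / (1 + Real.log M) ^ A := by positivity
    constructor <;> linarith [h13.1, h13.2]
  refine h11.trans ?_
  rw [div_le_div_iff₀ (by positivity) (by positivity)]
  calc (C + C2) * (1 + Real.log y) ^ A ≤ (C + C2) * (2 ^ A * (1 + Real.log M) ^ A) := by
        apply mul_le_mul_of_nonneg_left h8 (by positivity)
    _ = _ := by ring

/-! ### The convolution identity -/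

/-- `μ(n)/n` as an arithmetic function -/
noncomputable def muF : ArithmeticFunction ℝ :=
  ⟨fun n => (ArithmeticFunction.moebius n : ℝ) / n, by simp⟩

/-- `Λ(n)/n` as an arithmetic function -/
noncomputable def laF : ArithmeticFunction ℝ :=
  ⟨fun n => ArithmeticFunction.vonMangoldt n / n, by simp⟩

lemma muF_apply (n : ℕ) : muF n = (ArithmeticFunction.moebius n : ℝ) / n := rfl

lemma laF_apply (n : ℕ) : laF n = ArithmeticFunction.vonMangoldt n / n := rfl

/-- `(μ log) = - μ * Λ` -/
lemma moebius_log_apply (n : ℕ) :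
    ((ArithmeticFunction.moebius : ArithmeticFunction ℝ) * ArithmeticFunction.vonMangoldt) n =
      -((ArithmeticFunction.moebius n : ℝ) * Real.log n) := by
  -- the arithmetic function `μ log`
  let f : ArithmeticFunction ℝ :=
    ⟨fun n => (ArithmeticFunction.moebius n : ℝ) * Real.log n, by simp⟩
  have h1 : f * (ArithmeticFunction.zeta : ArithmeticFunction ℝ) =
      -ArithmeticFunction.vonMangoldt := by
    ext m
    rw [ArithmeticFunction.coe_mul_zeta_apply]
    have := ArithmeticFunction.sum_moebius_mul_log_eq (n := m)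
    rw [ArithmeticFunction.neg_apply, ← this]
    rfl
  have h2 : f = -((ArithmeticFunction.moebius : ArithmeticFunction ℝ) *
      ArithmeticFunction.vonMangoldt) := by
    calc f = f * ((ArithmeticFunction.zeta : ArithmeticFunction ℝ) *
          (ArithmeticFunction.moebius : ArithmeticFunction ℝ)) := by
          rw [ArithmeticFunction.coe_zeta_mul_coe_moebius, mul_one]
      _ = (f * (ArithmeticFunction.zeta : ArithmeticFunction ℝ)) *
          (ArithmeticFunction.moebius : ArithmeticFunction ℝ) := by rw [mul_assoc]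
      _ = _ := by
          rw [h1]
          ring
  have h3 := congrArg (fun g : ArithmeticFunction ℝ => g n) h2
  simp only [ArithmeticFunction.neg_apply] at h3
  have h4 : f n = (ArithmeticFunction.moebius n : ℝ) * Real.log n := rfl
  rw [h4] at h3
  linarith

lemma muF_mul_laF (n : ℕ) :
    (muF * laF) n = -((ArithmeticFunction.moebius n : ℝ) / n * Real.log n) := by
  rcases Nat.eq_zero_or_pos n with rfl | hn
  · simp
  have hnR : (0 : ℝ) < n := by exact_mod_cast hn
  have h1 := moebius_log_apply n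
  rw [ArithmeticFunction.mul_apply] at h1
  rw [ArithmeticFunction.mul_apply]
  have h2 : ∑ x ∈ n.divisorsAntidiagonal, muF x.1 * laF x.2 =
      (∑ x ∈ n.divisorsAntidiagonal, (ArithmeticFunction.moebius : ArithmeticFunction ℝ) x.1 *
        ArithmeticFunction.vonMangoldt x.2) / n := by
    rw [Finset.sum_div]
    apply Finset.sum_congr rfl
    intro x hx
    have hx1 := (Nat.mem_divisorsAntidiagonal.mp hx).1
    have hx2 : ((x.1 : ℝ)) * x.2 = n := by exact_mod_cast hx1
    rw [muF_apply, laF_apply, ← hx2, ArithmeticFunction.intCoe_apply]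
    rw [div_mul_div_comm]
  rw [h2, h1]
  ring

/-- `∑_{n ≤ N} μ(n)/n log n = - ∑_{n ≤ N} μ(n)/n L(N/n)` -/
lemma sum_mu_log (N : ℕ) :
    ∑ n ∈ Icc 1 N, (ArithmeticFunction.moebius n : ℝ) / n * Real.log n =
      -∑ n ∈ Icc 1 N, (ArithmeticFunction.moebius n : ℝ) / n * L (N / n) := by
  have h := ArithmeticFunction.sum_Ioc_mul_eq_sum_sum muF laF N
  rw [← Icc_one] at h
  have h1 : ∑ n ∈ Icc 1 N, (muF * laF) n =
      -∑ n ∈ Icc 1 N, (ArithmeticFunction.moebius n : ℝ) / n * Real.log n := by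
    rw [← Finset.sum_neg_distrib]
    exact Finset.sum_congr rfl fun n _ => muF_mul_laF n
  have h2 : ∑ n ∈ Icc 1 N, muF n * ∑ m ∈ Ioc 0 (N / n), laF m =
      ∑ n ∈ Icc 1 N, (ArithmeticFunction.moebius n : ℝ) / n * L (N / n) := by
    apply Finset.sum_congr rfl
    intro n _
    rw [← Icc_one]
    rfl
  linarith

/-- the key identity -/
lemma key (c0 : ℝ) (N : ℕ) :
    G N * (Real.log N + c0) =
      -∑ n ∈ Icc 1 N, (ArithmeticFunction.moebius n : ℝ) / n * R c0 ((N : ℝ) / n) := by
  have h := sum_mu_log N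
  have h1 : ∑ n ∈ Icc 1 N, (ArithmeticFunction.moebius n : ℝ) / n * R c0 ((N : ℝ) / n) =
      ∑ n ∈ Icc 1 N, (ArithmeticFunction.moebius n : ℝ) / n * L (N / n) +
      ∑ n ∈ Icc 1 N, (ArithmeticFunction.moebius n : ℝ) / n * Real.log n -
      ∑ n ∈ Icc 1 N, (ArithmeticFunction.moebius n : ℝ) / n * (Real.log N + c0) := by
    rw [← Finset.sum_add_distrib, ← Finset.sum_sub_distrib]
    apply Finset.sum_congr rfl
    intro n hn
    have hn1 := (mem_Icc.mp hn).1
    have hnN := (mem_Icc.mp hn).2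
    have hnR : (0 : ℝ) < n := by exact_mod_cast hn1
    have hNR : (0 : ℝ) < N := by exact_mod_cast (by omega : 0 < N)
    unfold R
    rw [Nat.floor_div_natCast, Nat.floor_natCast, Real.log_div hNR.ne' hnR.ne']
    ring
  rw [h1, ← Finset.sum_mul]
  unfold G
  linarith

end Vale.Agent.P004H.H212
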