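import Vale.Agent.P004H.H212.Mu3

open Finset Real Filter Topology

namespace Vale.Agent.P004H.H212

/-- Abel's inequality for an antitone weight -/
lemma abel (g φ : ℕ → ℝ) (B : ℝ) (a b : ℕ) (hab : a < b)
    (hφ : ∀ n, a < n → n < b → φ (n + 1) ≤ φ n) (hφ0 : 0 ≤ φ b)
    (hg : ∀ n, a ≤ n → n ≤ b → |g n - g a| ≤ B) :
    |∑ n ∈ Ioc a b, (g n - g (n - 1)) * φ n| ≤ B * φ (a + 1) := by
  have hB : 0 ≤ B := (abs_nonneg _).trans (hg a le_rfl hab.le)
  have main : ∀ m, a + 1 ≤ m → m ≤ b →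
      |∑ n ∈ Ioc a m, (g n - g (n - 1)) * φ n - (g m - g a) * φ m| ≤ B * (φ (a + 1) - φ m) := by
    intro m hm
    induction m, hm using Nat.le_induction with
    | base =>
      intro _
      simp [Nat.Ioc_succ_singleton]
    | succ k hk ih =>
      intro hkb
      have h1 := ih (by omega)
      rw [Finset.sum_Ioc_succ_top (by omega)]
      have h2 : k + 1 - 1 = k := by omega
      rw [h2]
      have h3 : ∑ n ∈ Ioc a k, (g n - g (n - 1)) * φ n + (g (k + 1) - g k) * φ (k + 1) -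
          (g (k + 1) - g a) * φ (k + 1) =
          (∑ n ∈ Ioc a k, (g n - g (n - 1)) * φ n - (g k - g a) * φ k) +
          (g k - g a) * (φ k - φ (k + 1)) := by ring
      rw [h3]
      refine (abs_add_le _ _).trans ?_
      have h4 : 0 ≤ φ k - φ (k + 1) := by linarith [hφ k (by omega) (by omega)]
      have h5 : |(g k - g a) * (φ k - φ (k + 1))| ≤ B * (φ k - φ (k + 1)) := by
        rw [abs_mul, abs_of_nonneg h4]
        exact mul_le_mul_of_nonneg_right (hg k (by omega) (by omega)) h4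
      calc _ ≤ B * (φ (a + 1) - φ k) + B * (φ k - φ (k + 1)) := add_le_add h1 h5
        _ = _ := by ring
  have h1 := main b hab le_rfl
  have h2 : |(g b - g a) * φ b| ≤ B * φ b := by
    rw [abs_mul, abs_of_nonneg hφ0]
    exact mul_le_mul_of_nonneg_right (hg b hab.le le_rfl) hφ0
  have h3 := abs_add_le (∑ n ∈ Ioc a b, (g n - g (n - 1)) * φ n - (g b - g a) * φ b)
    ((g b - g a) * φ b)
  rw [sub_add_cancel] at h3
  calc _ ≤ _ := h3
    _ ≤ B * (φ (a + 1) - φ b) + B * φ b := add_le_add h1 h2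
    _ = _ := by ring

lemma G_diff (n : ℕ) (hn : 1 ≤ n) :
    G n - G (n - 1) = (ArithmeticFunction.moebius n : ℝ) / n := by
  obtain ⟨m, rfl⟩ : ∃ m, n = m + 1 := ⟨n - 1, by omega⟩
  rw [Nat.add_sub_cancel, G_succ]
  ring

/-- the first sum -/
lemma stepS1 {c0 K : ℝ} {s : ℕ} (hK : 0 ≤ K)
    (hR : ∀ y : ℝ, 1 ≤ y → |R c0 y| ≤ K / (1 + Real.log y) ^ s)
    (w : ℝ) (hw : 0 < w) (N a : ℕ) (ha1 : 1 ≤ a) (haN : a < N)
    (haz : (a : ℝ) ≤ N / Real.exp w) :
    |∑ n ∈ Icc 1 a, (ArithmeticFunction.moebius n : ℝ) / n * R c0 ((N : ℝ) / n)| ≤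
      (1 + Real.log N) * (K / w ^ s) := by
  have hz0 : 0 < Real.exp w := Real.exp_pos _
  have hz1 : 1 < Real.exp w := Real.one_lt_exp_iff.mpr hw
  have haR : (1 : ℝ) ≤ a := by exact_mod_cast ha1
  have hN0R : (0 : ℝ) < N := by exact_mod_cast (by omega : 0 < N)
  refine (Finset.abs_sum_le_sum_abs _ _).trans ?_
  have h1 : ∀ n ∈ Icc 1 a, |(ArithmeticFunction.moebius n : ℝ) / n * R c0 ((N : ℝ) / n)| ≤
      ((n : ℝ))⁻¹ * (K / w ^ s) := by
    intro n hn
    have hn1 := (mem_Icc.mp hn).1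
    have hna := (mem_Icc.mp hn).2
    have hnR : (1 : ℝ) ≤ n := by exact_mod_cast hn1
    have hnaR : (n : ℝ) ≤ a := by exact_mod_cast hna
    have hzn : Real.exp w ≤ (N : ℝ) / n := by
      rw [le_div_iff₀ (by linarith)]
      have h2 : (n : ℝ) ≤ N / Real.exp w := hnaR.trans haz
      rw [le_div_iff₀ hz0] at h2
      linarith
    have h3 : w ≤ Real.log ((N : ℝ) / n) := by
      rw [Real.le_log_iff_exp_le (by positivity)]
      exact hzn
    have h4 := hR ((N : ℝ) / n) (by linarith)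
    rw [abs_mul, abs_div, abs_of_pos (by linarith : (0 : ℝ) < n)]
    apply mul_le_mul
    · rw [div_eq_mul_inv]
      have h5 := abs_moebius_le n
      have h6 : 0 < ((n : ℝ))⁻¹ := by positivity
      nlinarith
    · refine h4.trans ?_
      apply div_le_div_of_nonneg_left hK (by positivity)
      exact pow_le_pow_left₀ (by positivity) (by linarith) s
    · exact abs_nonneg _
    · positivity
  refine (Finset.sum_le_sum h1).trans ?_
  rw [← Finset.sum_mul]
  apply mul_le_mul_of_nonneg_right ?_ (by positivity)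
  have h7 := harmonic_le_one_add_log a
  rw [harmonic_eq_sum_Icc] at h7
  push_cast at h7
  refine h7.trans ?_
  have h8 : Real.log a ≤ Real.log N := Real.log_le_log (by linarith) (by exact_mod_cast haN.le)
  linarith

lemma sum_G_diff (a b : ℕ) (hb : a ≤ b) : ∑ n ∈ Ioc a b, (G n - G (n - 1)) = G b - G a := by
  induction b, hb using Nat.le_induction with
  | base => simp
  | succ k hk ih =>
    rw [Finset.sum_Ioc_succ_top (by omega), ih, Nat.add_sub_cancel]
    ring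

lemma split_R (c0 : ℝ) (a N : ℕ) (haN : a < N) :
    ∑ n ∈ Ioc a N, (ArithmeticFunction.moebius n : ℝ) / n * R c0 ((N : ℝ) / n) =
      ∑ n ∈ Ioc a N, (G n - G (n - 1)) * L (N / n) -
      ∑ n ∈ Ioc a N, (G n - G (n - 1)) * Real.log ((N : ℝ) / n) -
      c0 * (G N - G a) := by
  rw [← sum_G_diff a N haN.le, Finset.mul_sum, ← Finset.sum_sub_distrib,
    ← Finset.sum_sub_distrib]
  apply Finset.sum_congr rfl
  intro n hn
  have hn1 : 1 ≤ n := by
    have := (mem_Ioc.mp hn).1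
    omega
  rw [G_diff n hn1]
  unfold R
  rw [Nat.floor_div_natCast, Nat.floor_natCast]
  ring

/-- the second sum -/
lemma stepS2 {c0 K0 : ℝ} (hk0 : ∀ M : ℕ, 1 ≤ M → |L M - Real.log M - c0| ≤ K0)
    (w : ℝ) (N a : ℕ) (haN : a < N)
    (haz' : (N : ℝ) / Real.exp w < a + 1) (B : ℝ)
    (hGd : ∀ m : ℕ, a ≤ m → m ≤ N → |G m - G a| ≤ B) :
    |∑ n ∈ Ioc a N, (ArithmeticFunction.moebius n : ℝ) / n * R c0 ((N : ℝ) / n)| ≤
      B * (2 * w + 2 * |c0| + K0) := by
  have hz0 : 0 < Real.exp w := Real.exp_pos _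
  have hN0R : (0 : ℝ) < N := by exact_mod_cast (by omega : 0 < N)
  have hB : 0 ≤ B := (abs_nonneg _).trans (hGd a le_rfl haN.le)
  have hc0 := abs_nonneg c0
  have haz2 : (N : ℝ) < (a + 1) * Real.exp w := by
    rwa [div_lt_iff₀ hz0] at haz'
  have hL1 : L (N / (a + 1)) ≤ w + |c0| + K0 := by
    have hq1 : 1 ≤ N / (a + 1) := (Nat.one_le_div_iff (by omega)).mpr (by omega)
    have h1 := hk0 (N / (a + 1)) hq1
    have h2 := (abs_le.mp h1).2
    have h3 : Real.log ((N / (a + 1) : ℕ) : ℝ) ≤ w := by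
      rw [Real.log_le_iff_le_exp (by exact_mod_cast hq1)]
      have h4 : ((N / (a + 1) : ℕ) : ℝ) ≤ (N : ℝ) / ((a + 1 : ℕ) : ℝ) := Nat.cast_div_le
      refine h4.trans ?_
      rw [div_le_iff₀ (by positivity)]
      push_cast
      linarith
    have h5 := le_abs_self c0
    linarith
  have hlog1 : Real.log ((N : ℝ) / ((a + 1 : ℕ) : ℝ)) ≤ w := by
    rw [Real.log_le_iff_le_exp (by positivity)]
    rw [div_le_iff₀ (by positivity)]
    push_cast
    linarith
  have hA1 : |∑ n ∈ Ioc a N, (G n - G (n - 1)) * L (N / n)| ≤ B * (w + |c0| + K0) := by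
    refine (abel G (fun n => L (N / n)) B a N haN ?_ (L_nonneg _) hGd).trans ?_
    · intro n hn _
      exact L_mono (Nat.div_le_div_left (by omega) (by omega))
    · exact mul_le_mul_of_nonneg_left hL1 hB
  have hA2 : |∑ n ∈ Ioc a N, (G n - G (n - 1)) * Real.log ((N : ℝ) / n)| ≤ B * w := by
    refine (abel G (fun n => Real.log ((N : ℝ) / n)) B a N haN ?_ ?_ hGd).trans ?_
    · intro n hn hnN
      have hnR : (0 : ℝ) < n := by exact_mod_cast (by omega : 0 < n)
      apply Real.log_le_log (by positivity)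
      apply div_le_div_of_nonneg_left hN0R.le hnR
      push_cast
      linarith
    · simp [div_self hN0R.ne']
    · exact mul_le_mul_of_nonneg_left hlog1 hB
  rw [split_R c0 a N haN]
  have h3 : |c0 * (G N - G a)| ≤ |c0| * B := by
    rw [abs_mul]
    exact mul_le_mul_of_nonneg_left (hGd N haN.le le_rfl) hc0
  have h4 := abs_sub (∑ n ∈ Ioc a N, (G n - G (n - 1)) * L (N / n) -
      ∑ n ∈ Ioc a N, (G n - G (n - 1)) * Real.log ((N : ℝ) / n)) (c0 * (G N - G a))
  have h5 := abs_sub (∑ n ∈ Ioc a N, (G n - G (n - 1)) * L (N / n))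
      (∑ n ∈ Ioc a N, (G n - G (n - 1)) * Real.log ((N : ℝ) / n))
  calc _ ≤ _ := h4
    _ ≤ B * (w + |c0| + K0) + B * w + |c0| * B := by linarith
    _ = _ := by ring

/-- lower bound for the logarithm of the cut -/
lemma log_cut (N a : ℕ) (hN : 1 ≤ N) (ha1 : 1 ≤ a) (w : ℝ) (hw : 1 ≤ w)
    (haz' : (N : ℝ) / Real.exp w < a + 1) :
    1 + Real.log N - 2 * w ≤ 1 + Real.log a := by
  have hN0R : (0 : ℝ) < N := by exact_mod_cast hN
  have haR : (1 : ℝ) ≤ a := by exact_mod_cast ha1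
  have h1 : Real.log ((N : ℝ) / Real.exp w) ≤ Real.log ((a : ℝ) + 1) :=
    Real.log_le_log (by positivity) haz'.le
  rw [Real.log_div (by positivity) (by positivity), Real.log_exp] at h1
  have h2 : Real.log ((a : ℝ) + 1) ≤ Real.log (2 * a) :=
    Real.log_le_log (by positivity) (by linarith)
  rw [Real.log_mul (by norm_num) (by positivity)] at h2
  have h3 := Real.log_two_lt_d9
  linarith

/-- the algebra at the end -/
lemma fin_alg {g l ε K W Q : ℝ} {s : ℕ} (hl0 : 0 < l) (hε0 : 0 < ε) (hW : 0 ≤ W)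
    (hε1 : ε ≤ 1 / 64) (hQ : 32 * Q ≤ l)
    (htot : g * (l / 2) ≤ l * (K / (ε * l) ^ s) + 4 * W / l ^ s * (2 * (ε * l) + Q)) :
    g * l ^ s ≤ W / 2 + 2 * K / ε ^ s := by
  have hls : 0 < l ^ s := by positivity
  have hεs' : 0 < ε ^ s := by positivity
  have hfin : g * l ^ s ≤ 2 * K / ε ^ s + 8 * W * (2 * ε + Q / l) := by
    have h1 : g * l ^ s = (g * (l / 2)) * (2 * l ^ s / l) := by
      field_simp
    rw [h1]
    have h2 : 2 * K / ε ^ s + 8 * W * (2 * ε + Q / l) =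
        (l * (K / (ε * l) ^ s) + 4 * W / l ^ s * (2 * (ε * l) + Q)) *
        (2 * l ^ s / l) := by
      rw [mul_pow]
      field_simp
      ring
    rw [h2]
    exact mul_le_mul_of_nonneg_right htot (by positivity)
  have hq : Q / l ≤ 1 / 32 := by
    rw [div_le_iff₀ hl0]
    linarith
  have hlast : 8 * W * (2 * ε + Q / l) ≤ W / 2 := by
    have h1 : 2 * ε + Q / l ≤ 1 / 16 := by linarith
    calc 8 * W * (2 * ε + Q / l) ≤ 8 * W * (1 / 16) :=
          mul_le_mul_of_nonneg_left h1 (by positivity)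
      _ = W / 2 := by ring
  linarith

/-- the contraction step -/
lemma step (hP : PsiErr) (s : ℕ) : ∃ C T : ℝ, 0 ≤ C ∧ ∀ N : ℕ, 1 ≤ N → T ≤ 1 + Real.log N →
    ∀ W : ℝ, (∀ m : ℕ, 1 ≤ m → m ≤ N → |G m| * (1 + Real.log m) ^ s ≤ W) →
    |G N| * (1 + Real.log N) ^ s ≤ W / 2 + C := by
  obtain ⟨c0, hc⟩ := exists_c0 hP
  obtain ⟨K0, hK0, hk0'⟩ := hc 0
  have hk0 : ∀ M : ℕ, 1 ≤ M → |L M - Real.log M - c0| ≤ K0 := by
    intro M hM
    simpa using hk0' M hM
  obtain ⟨K1, hK1, hk1⟩ := hc s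
  obtain ⟨K, hK, hR⟩ := R_bound hK1 hk1
  obtain ⟨ε, hε⟩ : ∃ ε : ℝ, ε = 1 / (64 * ((s : ℝ) + 1)) := ⟨_, rfl⟩
  have hs0 : (0 : ℝ) ≤ s := Nat.cast_nonneg s
  have hε0 : 0 < ε := by rw [hε]; positivity
  have hε1 : ε ≤ 1 / 64 := by
    rw [hε, div_le_div_iff₀ (by positivity) (by norm_num)]
    linarith
  have hεs : ε * s ≤ 1 / 64 := by
    rw [hε, div_mul_eq_mul_div, div_le_div_iff₀ (by positivity) (by norm_num)]
    linarith
  refine ⟨2 * K / ε ^ s, 2 + 2 * |c0| + 1 / ε + 32 * (2 * |c0| + K0), by positivity, ?_⟩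
  intro N hN hT W hW
  obtain ⟨l, hl⟩ : ∃ l : ℝ, l = 1 + Real.log N := ⟨_, rfl⟩
  rw [← hl] at hT
  rw [← hl]
  have hc0 := abs_nonneg c0
  have hεinv : 0 < 1 / ε := by positivity
  have hl2 : 2 ≤ l := by linarith
  have hl0 : 0 < l := by linarith
  have hNR : (1 : ℝ) ≤ N := by exact_mod_cast hN
  have hN0R : (0 : ℝ) < N := by linarith
  have hεl : 1 ≤ ε * l := by
    have h1 : 1 / ε ≤ l := by linarith
    rw [div_le_iff₀ hε0] at h1
    linarith
  have hW0 : 0 ≤ W := by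
    refine le_trans ?_ (hW N hN le_rfl)
    have := ell_pos N
    positivity
  obtain ⟨z, hz⟩ : ∃ z : ℝ, z = Real.exp (ε * l) := ⟨_, rfl⟩
  have hz0 : 0 < z := by rw [hz]; exact Real.exp_pos _
  have hz1 : 1 < z := by
    rw [hz]
    exact Real.one_lt_exp_iff.mpr (by linarith)
  obtain ⟨a, ha⟩ : ∃ a : ℕ, a = ⌊(N : ℝ) / z⌋₊ := ⟨_, rfl⟩
  have hzN : z ≤ N := by
    rw [← Real.exp_log hN0R, hz]
    apply Real.exp_le_exp.mpr
    have : ε * l ≤ 1 / 64 * l := mul_le_mul_of_nonneg_right hε1 hl0.le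
    linarith
  have ha1 : 1 ≤ a := by
    rw [ha]
    apply Nat.le_floor
    rw [Nat.cast_one, le_div_iff₀ hz0]
    linarith
  have haR : (1 : ℝ) ≤ a := by exact_mod_cast ha1
  have haz : (a : ℝ) ≤ N / z := by rw [ha]; exact Nat.floor_le (by positivity)
  have haz' : (N : ℝ) / z < a + 1 := by rw [ha]; exact Nat.lt_floor_add_one _
  have haN : a < N := by
    have h1 : (N : ℝ) / z < N := by
      rw [div_lt_iff₀ hz0]
      nlinarith
    exact_mod_cast lt_of_le_of_lt haz h1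
  rw [hz] at haz haz'
  have hla : (1 - 2 * ε) * l ≤ 1 + Real.log a := by
    have h1 := log_cut N a hN ha1 (ε * l) hεl haz'
    linarith
  have hbern : (1 : ℝ) / 2 ≤ (1 - 2 * ε) ^ s := by
    have h1 := one_add_mul_le_pow (a := -(2 * ε)) (by linarith) s
    have h2 : (1 + -(2 * ε)) = 1 - 2 * ε := by ring
    rw [h2] at h1
    linarith
  have hG : ∀ m : ℕ, a ≤ m → m ≤ N → |G m| ≤ 2 * W / l ^ s := by
    intro m ham hmN
    have hm1 : 1 ≤ m := ha1.trans ham
    have h1 := hW m hm1 hmN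
    have h2 : Real.log a ≤ Real.log m :=
      Real.log_le_log (by linarith) (by exact_mod_cast ham)
    have h3 : ((1 - 2 * ε) * l) ^ s ≤ (1 + Real.log m) ^ s := by
      apply pow_le_pow_left₀
      · have : 0 < 1 - 2 * ε := by linarith
        positivity
      · linarith
    rw [mul_pow] at h3
    have h4 : l ^ s / 2 ≤ (1 + Real.log m) ^ s := by
      refine le_trans ?_ h3
      have : 0 < l ^ s := by positivity
      nlinarith
    rw [le_div_iff₀ (by positivity)]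
    have h5 : |G m| * (l ^ s / 2) ≤ W :=
      (mul_le_mul_of_nonneg_left h4 (abs_nonneg _)).trans h1
    linarith
  have hGd : ∀ m : ℕ, a ≤ m → m ≤ N → |G m - G a| ≤ 4 * W / l ^ s := by
    intro m ham hmN
    have h1 := hG m ham hmN
    have h2 := hG a le_rfl haN.le
    have h3 : 4 * W / l ^ s = 2 * W / l ^ s + 2 * W / l ^ s := by ring
    rw [h3]
    exact (abs_sub _ _).trans (add_le_add h1 h2)
  have hS1 := stepS1 hK hR (ε * l) (by positivity) N a ha1 haN haz
  rw [← hl] at hS1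
  have hS2 := stepS2 hk0 (ε * l) N a haN haz' _ hGd
  have hkey := key c0 N
  have hsplit : ∑ n ∈ Icc 1 N, (ArithmeticFunction.moebius n : ℝ) / n * R c0 ((N : ℝ) / n) =
      ∑ n ∈ Icc 1 a, (ArithmeticFunction.moebius n : ℝ) / n * R c0 ((N : ℝ) / n) +
      ∑ n ∈ Ioc a N, (ArithmeticFunction.moebius n : ℝ) / n * R c0 ((N : ℝ) / n) := by
    rw [Icc_one, Icc_one]
    exact (Finset.sum_Ioc_consecutive _ (Nat.zero_le a) haN.le).symm
  have htot : |G N| * (l / 2) ≤ l * (K / (ε * l) ^ s) +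
      4 * W / l ^ s * (2 * (ε * l) + (2 * |c0| + K0)) := by
    have h1 : l / 2 ≤ |Real.log N + c0| := by
      refine le_trans ?_ (le_abs_self _)
      have h2 := neg_abs_le c0
      have h3 : Real.log N = l - 1 := by rw [hl]; ring
      rw [h3]
      linarith
    calc |G N| * (l / 2) ≤ |G N| * |Real.log N + c0| :=
          mul_le_mul_of_nonneg_left h1 (abs_nonneg _)
      _ = |G N * (Real.log N + c0)| := (abs_mul _ _).symm
      _ ≤ _ := by
          rw [hkey, abs_neg, hsplit, ← add_assoc]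
          exact (abs_add_le _ _).trans (add_le_add hS1 hS2)
  exact fin_alg hl0 hε0 hW0 hε1 (by linarith) htot

end Vale.Agent.P004H.H212
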