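import Vale.Agent.P004H.H212.Mu4

open Finset Real Filter Topology

namespace Vale.Agent.P004H.H212

/-- `∑_{n ≤ N} μ(n)/n = O((1 + log N)^{-s})` for every `s` -/
theorem G_bound (hP : PsiErr) (s : ℕ) : ∃ B : ℝ, 0 ≤ B ∧ ∀ N : ℕ, 1 ≤ N →
    |G N| ≤ B / (1 + Real.log N) ^ s := by
  obtain ⟨C, T, hC, h⟩ := step hP s
  obtain ⟨B, hB⟩ : ∃ B : ℝ, B = 2 * C + |T| ^ s := ⟨_, rfl⟩
  have hT := abs_nonneg T
  have hTs : 0 ≤ |T| ^ s := by positivity
  have hB0 : 0 ≤ B := by rw [hB]; linarith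
  have main : ∀ N : ℕ, ∀ m : ℕ, 1 ≤ m → m ≤ N → |G m| * (1 + Real.log m) ^ s ≤ B := by
    intro N
    induction N with
    | zero => intro m h1 h2; omega
    | succ n ih =>
      intro m hm1 hm2
      rcases Nat.lt_or_ge m (n + 1) with h3 | h3
      · exact ih m hm1 (by omega)
      · have hmn : m = n + 1 := by omega
        rcases le_or_gt T (1 + Real.log m) with hT1 | hT1
        · by_contra hcon
          rw [not_le] at hcon
          have h4 := h m hm1 hT1 (|G m| * (1 + Real.log m) ^ s) (by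
            intro k hk1 hk2
            rcases Nat.lt_or_ge k (n + 1) with h5 | h5
            · exact (ih k hk1 (by omega)).trans hcon.le
            · have : k = m := by omega
              rw [this])
          have h6 : 2 * C ≤ B := by rw [hB]; linarith
          linarith
        · have h5 : 1 + Real.log m ≤ |T| := hT1.le.trans (le_abs_self T)
          have h6 : (1 + Real.log m) ^ s ≤ |T| ^ s :=
            pow_le_pow_left₀ (ell_pos m).le h5 s
          have h7 := abs_G_le_one m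
          have h8 : 0 ≤ (1 + Real.log m) ^ s := by
            have := ell_pos m
            positivity
          calc |G m| * (1 + Real.log m) ^ s ≤ 1 * (1 + Real.log m) ^ s :=
                mul_le_mul_of_nonneg_right h7 h8
            _ ≤ |T| ^ s := by rw [one_mul]; exact h6
            _ ≤ B := by rw [hB]; linarith
  refine ⟨B, hB0, ?_⟩
  intro N hN
  have := ell_pos N
  rw [le_div_iff₀ (by positivity)]
  exact main N N hN le_rfl

/-- `∑_{m ≤ N} μ(m)` by partial summation -/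
lemma M_eq (N : ℕ) :
    ∑ d ∈ Icc 1 N, (ArithmeticFunction.moebius d : ℝ) = N * G N - ∑ m ∈ Finset.range N, G m := by
  induction N with
  | zero => simp [G]
  | succ n ih =>
    rw [Finset.sum_Icc_succ_top (by omega), ih, Finset.sum_range_succ, G_succ]
    have : ((n + 1 : ℕ) : ℝ) ≠ 0 := by positivity
    field_simp
    push_cast
    ring

/-- `∑_{m < N} 1/(1+log m)^s = O(N/(1+log N)^s)` -/
lemma sum_inv_ell (s : ℕ) : ∃ C : ℝ, 0 ≤ C ∧ ∀ N : ℕ, 1 ≤ N →
    ∑ m ∈ Finset.range N, 1 / (1 + Real.log m) ^ s ≤ C * N / (1 + Real.log N) ^ s := by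
  obtain ⟨C1, hC1, h1⟩ := ell_pow_le_sqrt s
  refine ⟨2 * C1 + 2 ^ s, by positivity, ?_⟩
  intro N hN
  have hNR : (1 : ℝ) ≤ N := by exact_mod_cast hN
  have hl := ell_pos N
  have hsq := Real.sqrt_nonneg (N : ℝ)
  have hsq2 : Real.sqrt N * Real.sqrt N = N := Real.mul_self_sqrt (by linarith)
  have hsq1 : 1 ≤ Real.sqrt N := by
    rw [Real.one_le_sqrt]
    exact hNR
  -- termwise
  have h2 : ∀ m ∈ Finset.range N, 1 / (1 + Real.log m) ^ s ≤
      (if (m : ℝ) ≤ Real.sqrt N then 1 else 0) + 2 ^ s / (1 + Real.log N) ^ s := by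
    intro m _
    have hm := ell_pos m
    have h0 : 0 ≤ (2 : ℝ) ^ s / (1 + Real.log N) ^ s := by positivity
    split_ifs with h3
    · have h4 : 1 / (1 + Real.log m) ^ s ≤ 1 := by
        rw [div_le_one (by positivity)]
        exact one_le_pow₀ (one_le_ell m)
      linarith
    · rw [not_le] at h3
      rw [zero_add, div_le_div_iff₀ (by positivity) (by positivity), one_mul, ← mul_pow]
      apply pow_le_pow_left₀ hl.le
      have h4 : Real.log (Real.sqrt N) ≤ Real.log m := Real.log_le_log (by linarith) h3.le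
      rw [Real.log_sqrt (by linarith)] at h4
      linarith
  refine (Finset.sum_le_sum h2).trans ?_
  rw [Finset.sum_add_distrib, Finset.sum_const, Finset.card_range, nsmul_eq_mul]
  have h5 : ∑ m ∈ Finset.range N, (if (m : ℝ) ≤ Real.sqrt N then (1 : ℝ) else 0) ≤
      2 * Real.sqrt N := by
    rw [← Finset.sum_filter, Finset.sum_const, nsmul_eq_mul, mul_one]
    have h6 : (Finset.range N).filter (fun m : ℕ => (m : ℝ) ≤ Real.sqrt N) ⊆
        Finset.range (⌊Real.sqrt N⌋₊ + 1) := by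
      intro m hm
      rw [Finset.mem_filter] at hm
      rw [Finset.mem_range]
      have := Nat.le_floor hm.2
      omega
    have h7 := Finset.card_le_card h6
    rw [Finset.card_range] at h7
    have h8 : (((Finset.range N).filter (fun m : ℕ => (m : ℝ) ≤ Real.sqrt N)).card : ℝ) ≤
        (⌊Real.sqrt N⌋₊ : ℝ) + 1 := by exact_mod_cast h7
    have h9 := Nat.floor_le hsq
    linarith
  have h10 : 2 * Real.sqrt N ≤ 2 * C1 * N / (1 + Real.log N) ^ s := by
    rw [le_div_iff₀ (by positivity)]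
    have h11 := h1 N hN
    calc 2 * Real.sqrt N * (1 + Real.log N) ^ s ≤ 2 * Real.sqrt N * (C1 * Real.sqrt N) :=
          mul_le_mul_of_nonneg_left h11 (by positivity)
      _ = 2 * C1 * (Real.sqrt N * Real.sqrt N) := by ring
      _ = 2 * C1 * N := by rw [hsq2]
  calc _ ≤ 2 * C1 * N / (1 + Real.log N) ^ s + N * (2 ^ s / (1 + Real.log N) ^ s) :=
        add_le_add (h5.trans h10) le_rfl
    _ = _ := by ring

/-- Mertens function bound, natural numbers -/
theorem M_bound (hP : PsiErr) (s : ℕ) : ∃ B : ℝ, 0 ≤ B ∧ ∀ N : ℕ, 1 ≤ N →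
    |∑ d ∈ Icc 1 N, (ArithmeticFunction.moebius d : ℝ)| ≤ B * N / (1 + Real.log N) ^ s := by
  obtain ⟨B, hB, h⟩ := G_bound hP s
  obtain ⟨C, hC, hc⟩ := sum_inv_ell s
  refine ⟨B + B * C, by positivity, ?_⟩
  intro N hN
  have hNR : (1 : ℝ) ≤ N := by exact_mod_cast hN
  have hl := ell_pos N
  rw [M_eq]
  have h1 : |(N : ℝ) * G N| ≤ B * N / (1 + Real.log N) ^ s := by
    rw [abs_mul, abs_of_pos (by linarith : (0 : ℝ) < N)]
    calc (N : ℝ) * |G N| ≤ N * (B / (1 + Real.log N) ^ s) :=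
          mul_le_mul_of_nonneg_left (h N hN) (by linarith)
      _ = _ := by ring
  have h2 : |∑ m ∈ Finset.range N, G m| ≤ B * C * N / (1 + Real.log N) ^ s := by
    refine (Finset.abs_sum_le_sum_abs _ _).trans ?_
    have h3 : ∀ m ∈ Finset.range N, |G m| ≤ B * (1 / (1 + Real.log m) ^ s) := by
      intro m _
      rcases Nat.eq_zero_or_pos m with rfl | hm
      · simp [G_zero, hB]
      · have := h m hm
        calc |G m| ≤ B / (1 + Real.log m) ^ s := this
          _ = _ := by ring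
    refine (Finset.sum_le_sum h3).trans ?_
    rw [← Finset.mul_sum]
    calc _ ≤ B * (C * N / (1 + Real.log N) ^ s) := mul_le_mul_of_nonneg_left (hc N hN) hB
      _ = _ := by ring
  calc _ ≤ |(N : ℝ) * G N| + |∑ m ∈ Finset.range N, G m| := abs_sub _ _
    _ ≤ _ := add_le_add h1 h2
    _ = _ := by ring

lemma log_floor {x : ℝ} (hx : 2 ≤ x) : Real.log x ≤ 1 + Real.log (⌊x⌋₊ : ℝ) := by
  have h1 : (2 : ℝ) ≤ (⌊x⌋₊ : ℝ) := by
    have : 2 ≤ ⌊x⌋₊ := Nat.le_floor (by simpa using hx)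
    exact_mod_cast this
  have h2 : x ≤ 2 * (⌊x⌋₊ : ℝ) := by
    have := (Nat.lt_floor_add_one x).le
    linarith
  have h3 : Real.log x ≤ Real.log (2 * (⌊x⌋₊ : ℝ)) := Real.log_le_log (by linarith) h2
  rw [Real.log_mul (by norm_num) (by linarith)] at h3
  have h4 := Real.log_two_lt_d9
  linarith

lemma log_floor_pow {x : ℝ} (hx : 2 ≤ x) (A : ℕ) :
    0 < Real.log x ^ A ∧ Real.log x ^ A ≤ (1 + Real.log (⌊x⌋₊ : ℝ)) ^ A := by
  have h1 : 0 < Real.log x := Real.log_pos (by linarith)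
  exact ⟨by positivity, pow_le_pow_left₀ h1.le (log_floor hx) A⟩

/-- `∑_{d ≤ x} μ(d)/d = O((log x)^{-A})`, from the prime number theorem with error -/
theorem mu_div_of (hP : PsiErr) (A : ℕ) : ∃ C : ℝ, ∀ x : ℝ, 2 ≤ x →
    |∑ d ∈ Finset.Icc 1 ⌊x⌋₊, (ArithmeticFunction.moebius d : ℝ) / d| ≤ C / (Real.log x) ^ A := by
  obtain ⟨B, hB, h⟩ := G_bound hP A
  refine ⟨B, ?_⟩
  intro x hx
  have h1 : 1 ≤ ⌊x⌋₊ := Nat.le_floor (by simpa using (by linarith : (1 : ℝ) ≤ x))
  obtain ⟨h2, h3⟩ := log_floor_pow hx A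
  exact (h _ h1).trans (div_le_div_of_nonneg_left hB h2 h3)

/-- `∑_{d ≤ x} μ(d) = O(x (log x)^{-A})`, from the prime number theorem with error -/
theorem mertens_of (hP : PsiErr) (A : ℕ) : ∃ C : ℝ, ∀ x : ℝ, 2 ≤ x →
    |∑ d ∈ Finset.Icc 1 ⌊x⌋₊, (ArithmeticFunction.moebius d : ℝ)| ≤
      C * x / (Real.log x) ^ A := by
  obtain ⟨B, hB, h⟩ := M_bound hP A
  refine ⟨B, ?_⟩
  intro x hx
  have h1 : 1 ≤ ⌊x⌋₊ := Nat.le_floor (by simpa using (by linarith : (1 : ℝ) ≤ x))
  obtain ⟨h2, h3⟩ := log_floor_pow hx A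
  refine (h _ h1).trans ?_
  have h4 : (⌊x⌋₊ : ℝ) ≤ x := Nat.floor_le (by linarith)
  calc B * (⌊x⌋₊ : ℝ) / (1 + Real.log (⌊x⌋₊ : ℝ)) ^ A
      ≤ B * (⌊x⌋₊ : ℝ) / (Real.log x) ^ A :=
        div_le_div_of_nonneg_left (by positivity) h2 h3
    _ ≤ B * x / (Real.log x) ^ A := by
        apply div_le_div_of_nonneg_right _ h2.le
        exact mul_le_mul_of_nonneg_left h4 hB

end Vale.Agent.P004H.H212
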