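import Vale.Agent.P004H.H212.Mu5

open Finset Real Filter Topology

namespace Vale.Agent.P004H.H212

/-- harmonic numbers as reals -/
noncomputable def hr (N : ℕ) : ℝ := ∑ k ∈ Icc 1 N, 1 / (k : ℝ)

lemma hr_eq (N : ℕ) : hr N = (harmonic N : ℝ) := by
  rw [harmonic_eq_sum_Icc, hr]
  push_cast
  exact Finset.sum_congr rfl fun k _ => one_div _

lemma hr_mono {M N : ℕ} (h : M ≤ N) : hr M ≤ hr N := by
  unfold hr
  apply Finset.sum_le_sum_of_subset_of_nonneg
  · exact Finset.Icc_subset_Icc le_rfl h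
  · intro i _ _
    positivity

lemma hr_nonneg (N : ℕ) : 0 ≤ hr N := Finset.sum_nonneg fun _ _ => by positivity

lemma hr_le (N : ℕ) : hr N ≤ 1 + Real.log N := by
  rw [hr_eq]
  exact harmonic_le_one_add_log N

/-- the remainder of the harmonic sum at a real point -/
noncomputable def rr (y : ℝ) : ℝ := hr ⌊y⌋₊ - Real.log y - eulerMascheroniConstant

lemma rr_bound {y : ℝ} (hy : 1 ≤ y) : |rr y| ≤ 2 / y := by
  obtain ⟨M, hM⟩ : ∃ M : ℕ, M = ⌊y⌋₊ := ⟨_, rfl⟩
  have hM1 : 1 ≤ M := by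
    rw [hM]
    exact Nat.le_floor (by simpa using hy)
  have hMR : (1 : ℝ) ≤ M := by exact_mod_cast hM1
  have hMy : (M : ℝ) ≤ y := by rw [hM]; exact Nat.floor_le (by linarith)
  have hyM : y < M + 1 := by rw [hM]; exact Nat.lt_floor_add_one y
  have h3 : Real.log M ≤ Real.log y := Real.log_le_log (by linarith) hMy
  have h4 : Real.log y - Real.log M ≤ 1 / M := by
    rw [← Real.log_div (by positivity) (by positivity)]
    have h5 := Real.log_le_sub_one_of_pos (by positivity : (0 : ℝ) < y / M)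
    have h6 : y / M ≤ 1 + 1 / M := by
      rw [div_le_iff₀ (by linarith)]
      have : (1 + 1 / (M : ℝ)) * M = M + 1 := by field_simp
      linarith
    linarith
  have h7 := harm_bound M hM1
  have h8 : (1 : ℝ) / M ≤ 2 / y := by
    rw [div_le_div_iff₀ (by linarith) (by linarith)]
    linarith
  unfold rr
  rw [← hM, hr_eq, abs_le]
  constructor <;> linarith [h7.1, h7.2]

/-- `1/n` as an arithmetic function -/
noncomputable def onF : ArithmeticFunction ℝ :=
  ⟨fun n => 1 / (n : ℝ), by simp⟩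

lemma onF_apply (n : ℕ) : onF n = 1 / (n : ℝ) := rfl

lemma muF_mul_onF (n : ℕ) : (muF * onF) n = if n = 1 then 1 else 0 := by
  rcases Nat.eq_zero_or_pos n with rfl | hn
  · simp
  have hnR : (0 : ℝ) < n := by exact_mod_cast hn
  have h0 : ((ArithmeticFunction.moebius : ArithmeticFunction ℝ) *
      (ArithmeticFunction.zeta : ArithmeticFunction ℝ)) n =
      (if n = 1 then 1 else 0 : ℝ) := by
    rw [ArithmeticFunction.coe_moebius_mul_coe_zeta, ArithmeticFunction.one_apply]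
  rw [ArithmeticFunction.mul_apply] at h0
  rw [ArithmeticFunction.mul_apply]
  have h2 : ∑ x ∈ n.divisorsAntidiagonal, muF x.1 * onF x.2 =
      (∑ x ∈ n.divisorsAntidiagonal, (ArithmeticFunction.moebius : ArithmeticFunction ℝ) x.1 *
        (ArithmeticFunction.zeta : ArithmeticFunction ℝ) x.2) / n := by
    rw [Finset.sum_div]
    apply Finset.sum_congr rfl
    intro x hx
    have hx1 := (Nat.mem_divisorsAntidiagonal.mp hx).1
    have hx0 : x.2 ≠ 0 := by
      intro h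
      rw [h, Nat.mul_zero] at hx1
      omega
    have hx2 : ((x.1 : ℝ)) * x.2 = n := by exact_mod_cast hx1
    rw [muF_apply, onF_apply, ← hx2, ArithmeticFunction.intCoe_apply,
      ArithmeticFunction.natCoe_apply, ArithmeticFunction.zeta_apply, if_neg hx0]
    rw [div_mul_div_comm]
    simp
  rw [h2, h0]
  split_ifs with h
  · rw [h]; simp
  · simp

/-- `∑_{n ≤ N} μ(n)/n h(N/n) = 1` -/
lemma sum_mu_hr {N : ℕ} (hN : 1 ≤ N) :
    ∑ n ∈ Icc 1 N, (ArithmeticFunction.moebius n : ℝ) / n * hr (N / n) = 1 := by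
  have h := ArithmeticFunction.sum_Ioc_mul_eq_sum_sum muF onF N
  rw [← Icc_one] at h
  have h1 : ∑ n ∈ Icc 1 N, (muF * onF) n = 1 := by
    rw [Finset.sum_congr rfl fun n _ => muF_mul_onF n]
    rw [Finset.sum_ite_eq' (Icc 1 N) 1 (fun _ => (1 : ℝ))]
    rw [if_pos (by simp only [mem_Icc]; omega)]
  have h2 : ∑ n ∈ Icc 1 N, muF n * ∑ m ∈ Ioc 0 (N / n), onF m =
      ∑ n ∈ Icc 1 N, (ArithmeticFunction.moebius n : ℝ) / n * hr (N / n) := by
    apply Finset.sum_congr rfl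
    intro n _
    rw [← Icc_one]
    rfl
  linarith

/-- `∑_{n ≤ N} μ(n)/n log(N/n)` -/
noncomputable def Hn (N : ℕ) : ℝ :=
  ∑ n ∈ Icc 1 N, (ArithmeticFunction.moebius n : ℝ) / n * Real.log ((N : ℝ) / n)

lemma Hn_eq {N : ℕ} (hN : 1 ≤ N) :
    Hn N - 1 = -(eulerMascheroniConstant * G N) -
      ∑ n ∈ Icc 1 N, (ArithmeticFunction.moebius n : ℝ) / n * rr ((N : ℝ) / n) := by
  have h := sum_mu_hr hN
  have h1 : ∑ n ∈ Icc 1 N, (ArithmeticFunction.moebius n : ℝ) / n * rr ((N : ℝ) / n) =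
      ∑ n ∈ Icc 1 N, (ArithmeticFunction.moebius n : ℝ) / n * hr (N / n) -
      ∑ n ∈ Icc 1 N, (ArithmeticFunction.moebius n : ℝ) / n * Real.log ((N : ℝ) / n) -
      eulerMascheroniConstant * ∑ n ∈ Icc 1 N, (ArithmeticFunction.moebius n : ℝ) / n := by
    rw [Finset.mul_sum, ← Finset.sum_sub_distrib, ← Finset.sum_sub_distrib]
    apply Finset.sum_congr rfl
    intro n _
    unfold rr
    rw [Nat.floor_div_natCast, Nat.floor_natCast]
    ring
  rw [h1, h]
  unfold Hn G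
  ring

/-- first part -/
lemma rrS1 (w : ℝ) (N a : ℕ) (haN : a < N)
    (haz : (a : ℝ) ≤ N / Real.exp w) :
    |∑ n ∈ Icc 1 a, (ArithmeticFunction.moebius n : ℝ) / n * rr ((N : ℝ) / n)| ≤
      2 / Real.exp w := by
  have hz0 : 0 < Real.exp w := Real.exp_pos _
  have hN0R : (0 : ℝ) < N := by exact_mod_cast (by omega : 0 < N)
  refine (Finset.abs_sum_le_sum_abs _ _).trans ?_
  have h1 : ∀ n ∈ Icc 1 a, |(ArithmeticFunction.moebius n : ℝ) / n * rr ((N : ℝ) / n)| ≤
      2 / N := by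
    intro n hn
    have hn1 := (mem_Icc.mp hn).1
    have hna := (mem_Icc.mp hn).2
    have hnR : (1 : ℝ) ≤ n := by exact_mod_cast hn1
    have hnN : (n : ℝ) ≤ N := by exact_mod_cast (by omega : n ≤ N)
    have h4 := rr_bound (y := (N : ℝ) / n) (by rw [le_div_iff₀ (by linarith)]; linarith)
    rw [abs_mul, abs_div, abs_of_pos (by linarith : (0 : ℝ) < n)]
    have h5 := abs_moebius_le n
    have h6 : |(ArithmeticFunction.moebius n : ℝ)| / n ≤ 1 / n :=
      div_le_div_of_nonneg_right h5 (by linarith)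
    calc _ ≤ 1 / (n : ℝ) * (2 / ((N : ℝ) / n)) :=
          mul_le_mul h6 h4 (abs_nonneg _) (by positivity)
      _ = 2 / N := by field_simp
  refine (Finset.sum_le_sum h1).trans ?_
  rw [Finset.sum_const, Nat.card_Icc, nsmul_eq_mul]
  have h7 : ((a + 1 - 1 : ℕ) : ℝ) = a := by simp
  rw [h7]
  calc (a : ℝ) * (2 / N) ≤ (N / Real.exp w) * (2 / N) :=
        mul_le_mul_of_nonneg_right haz (by positivity)
    _ = 2 / Real.exp w := by field_simp

/-- second part -/
lemma rrS2 (w : ℝ) (N a : ℕ) (haN : a < N)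
    (haz' : (N : ℝ) / Real.exp w < a + 1) (B : ℝ)
    (hGd : ∀ m : ℕ, a ≤ m → m ≤ N → |G m - G a| ≤ B) :
    |∑ n ∈ Ioc a N, (ArithmeticFunction.moebius n : ℝ) / n * rr ((N : ℝ) / n)| ≤
      B * (2 * w + 2) := by
  have hz0 : 0 < Real.exp w := Real.exp_pos _
  have hN0R : (0 : ℝ) < N := by exact_mod_cast (by omega : 0 < N)
  have hB : 0 ≤ B := (abs_nonneg _).trans (hGd a le_rfl haN.le)
  have haz2 : (N : ℝ) < (a + 1) * Real.exp w := by
    rwa [div_lt_iff₀ hz0] at haz'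
  have hlog1 : Real.log ((N : ℝ) / ((a + 1 : ℕ) : ℝ)) ≤ w := by
    rw [Real.log_le_iff_le_exp (by positivity)]
    rw [div_le_iff₀ (by positivity)]
    push_cast
    linarith
  have hL1 : hr (N / (a + 1)) ≤ w + 1 := by
    have hq1 : 1 ≤ N / (a + 1) := (Nat.one_le_div_iff (by omega)).mpr (by omega)
    have h1 := hr_le (N / (a + 1))
    have h3 : Real.log ((N / (a + 1) : ℕ) : ℝ) ≤ w := by
      refine le_trans (Real.log_le_log (by exact_mod_cast hq1) Nat.cast_div_le) hlog1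
    linarith
  have hA1 : |∑ n ∈ Ioc a N, (G n - G (n - 1)) * hr (N / n)| ≤ B * (w + 1) := by
    refine (abel G (fun n => hr (N / n)) B a N haN ?_ (hr_nonneg _) hGd).trans ?_
    · intro n hn _
      exact hr_mono (Nat.div_le_div_left (by omega) (by omega))
    · exact mul_le_mul_of_nonneg_left hL1 hB
  have hA2 : |∑ n ∈ Ioc a N, (G n - G (n - 1)) * Real.log ((N : ℝ) / n)| ≤ B * w := by
    refine (abel G (fun n => Real.log ((N : ℝ) / n)) B a N haN ?_ ?_ hGd).trans ?_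
    · intro n hn hnN
      have hnR : (0 : ℝ) < n := by exact_mod_cast (by omega : 0 < n)
      apply Real.log_le_log (by positivity)
      apply div_le_div_of_nonneg_left hN0R.le hnR
      push_cast
      linarith
    · simp [div_self hN0R.ne']
    · exact mul_le_mul_of_nonneg_left hlog1 hB
  have hsp : ∑ n ∈ Ioc a N, (ArithmeticFunction.moebius n : ℝ) / n * rr ((N : ℝ) / n) =
      ∑ n ∈ Ioc a N, (G n - G (n - 1)) * hr (N / n) -
      ∑ n ∈ Ioc a N, (G n - G (n - 1)) * Real.log ((N : ℝ) / n) -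
      eulerMascheroniConstant * (G N - G a) := by
    rw [← sum_G_diff a N haN.le, Finset.mul_sum, ← Finset.sum_sub_distrib,
      ← Finset.sum_sub_distrib]
    apply Finset.sum_congr rfl
    intro n hn
    have hn1 : 1 ≤ n := by
      have := (mem_Ioc.mp hn).1
      omega
    rw [G_diff n hn1]
    unfold rr
    rw [Nat.floor_div_natCast, Nat.floor_natCast]
    ring
  rw [hsp]
  have hg1 := Real.one_half_lt_eulerMascheroniConstant
  have hg2 := Real.eulerMascheroniConstant_lt_two_thirds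
  have h3 : |eulerMascheroniConstant * (G N - G a)| ≤ 1 * B := by
    rw [abs_mul, abs_of_pos (by linarith)]
    exact mul_le_mul (by linarith) (hGd N haN.le le_rfl) (abs_nonneg _) (by norm_num)
  have h4 := abs_sub (∑ n ∈ Ioc a N, (G n - G (n - 1)) * hr (N / n) -
      ∑ n ∈ Ioc a N, (G n - G (n - 1)) * Real.log ((N : ℝ) / n))
      (eulerMascheroniConstant * (G N - G a))
  have h5 := abs_sub (∑ n ∈ Ioc a N, (G n - G (n - 1)) * hr (N / n))
      (∑ n ∈ Ioc a N, (G n - G (n - 1)) * Real.log ((N : ℝ) / n))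
  calc _ ≤ _ := h4
    _ ≤ B * (w + 1) + B * w + 1 * B := by linarith
    _ = _ := by ring

/-- crude bound, all `N` -/
lemma Hn_crude {N : ℕ} (hN : 1 ≤ N) : |Hn N - 1| ≤ 3 := by
  have hN0R : (0 : ℝ) < N := by exact_mod_cast hN
  rw [Hn_eq hN]
  have hg1 := Real.one_half_lt_eulerMascheroniConstant
  have hg2 := Real.eulerMascheroniConstant_lt_two_thirds
  have h1 : |-(eulerMascheroniConstant * G N)| ≤ 1 := by
    rw [abs_neg, abs_mul, abs_of_pos (by linarith)]
    have := abs_G_le_one N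
    have h0 := abs_nonneg (G N)
    nlinarith
  have h2 : |∑ n ∈ Icc 1 N, (ArithmeticFunction.moebius n : ℝ) / n * rr ((N : ℝ) / n)| ≤ 2 := by
    refine (Finset.abs_sum_le_sum_abs _ _).trans ?_
    have h3 : ∀ n ∈ Icc 1 N, |(ArithmeticFunction.moebius n : ℝ) / n * rr ((N : ℝ) / n)| ≤
        2 / N := by
      intro n hn
      have hn1 := (mem_Icc.mp hn).1
      have hna := (mem_Icc.mp hn).2
      have hnR : (1 : ℝ) ≤ n := by exact_mod_cast hn1
      have hnN : (n : ℝ) ≤ N := by exact_mod_cast hna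
      have h4 := rr_bound (y := (N : ℝ) / n) (by rw [le_div_iff₀ (by linarith)]; linarith)
      rw [abs_mul, abs_div, abs_of_pos (by linarith : (0 : ℝ) < n)]
      have h5 := abs_moebius_le n
      have h6 : |(ArithmeticFunction.moebius n : ℝ)| / n ≤ 1 / n :=
        div_le_div_of_nonneg_right h5 (by linarith)
      calc _ ≤ 1 / (n : ℝ) * (2 / ((N : ℝ) / n)) :=
            mul_le_mul h6 h4 (abs_nonneg _) (by positivity)
        _ = 2 / N := by field_simp
    refine (Finset.sum_le_sum h3).trans ?_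
    rw [Finset.sum_const, Nat.card_Icc, nsmul_eq_mul, Nat.add_sub_cancel]
    rw [mul_div_assoc', mul_div_right_comm, div_self hN0R.ne']
    norm_num
  refine (abs_sub _ _).trans ?_
  linarith

lemma pow_le_exp_quarter (l w : ℝ) (hl : 0 ≤ l) (hw : l = 4 * w + 1) (A : ℕ) :
    l ^ A ≤ 3 * 4 ^ A * A.factorial * Real.exp w := by
  have h1 := Real.pow_div_factorial_le_exp (l / 4) (by positivity) A
  rw [div_le_iff₀ (by positivity), div_pow] at h1
  have h2 : Real.exp (l / 4) ≤ 3 * Real.exp w := by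
    have h3 : l / 4 = 1 / 4 + w := by linarith
    rw [h3, Real.exp_add]
    apply mul_le_mul_of_nonneg_right _ (Real.exp_pos _).le
    have h4 : Real.exp (1 / 4) ≤ Real.exp 1 := Real.exp_le_exp.mpr (by norm_num)
    have h5 := Real.exp_one_lt_d9
    linarith
  rw [div_le_iff₀ (by positivity)] at h1
  calc l ^ A ≤ Real.exp (l / 4) * A.factorial * 4 ^ A := h1
    _ ≤ (3 * Real.exp w) * A.factorial * 4 ^ A := by
        apply mul_le_mul_of_nonneg_right _ (by positivity)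
        exact mul_le_mul_of_nonneg_right h2 (by positivity)
    _ = _ := by ring

/-- `∑_{n ≤ N} μ(n)/n log(N/n) = 1 + O((1 + log N)^{-A})` -/
theorem Hn_bound (hP : PsiErr) (A : ℕ) : ∃ C : ℝ, 0 ≤ C ∧ ∀ N : ℕ, 1 ≤ N →
    |Hn N - 1| ≤ C / (1 + Real.log N) ^ A := by
  obtain ⟨B, hB, hG⟩ := G_bound hP (A + 1)
  obtain ⟨C1, hC1⟩ : ∃ C1 : ℝ, C1 = 3 * 4 ^ A * (A.factorial : ℝ) := ⟨_, rfl⟩
  have hC10 : 0 ≤ C1 := by rw [hC1]; positivity
  refine ⟨3 * 5 ^ A + (B + 2 * C1 + 2 ^ (A + 2) * B), by positivity, ?_⟩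
  intro N hN
  have hNR : (1 : ℝ) ≤ N := by exact_mod_cast hN
  have hN0R : (0 : ℝ) < N := by linarith
  obtain ⟨l, hl⟩ : ∃ l : ℝ, l = 1 + Real.log N := ⟨_, rfl⟩
  have hl1 : 1 ≤ l := by rw [hl]; exact one_le_ell N
  have hl0 : 0 < l := by linarith
  have hlA : 0 < l ^ A := by positivity
  rw [← hl]
  rcases lt_or_ge l 5 with h5 | h5
  · rw [le_div_iff₀ hlA]
    have h1 : l ^ A ≤ 5 ^ A := pow_le_pow_left₀ hl0.le h5.le A
    have h2 := Hn_crude hN
    have h3 : |Hn N - 1| * l ^ A ≤ 3 * 5 ^ A :=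
      mul_le_mul h2 h1 hlA.le (by norm_num)
    have h4 : 0 ≤ B + 2 * C1 + 2 ^ (A + 2) * B := by positivity
    linarith
  · obtain ⟨w, hw⟩ : ∃ w : ℝ, w = Real.log N / 4 := ⟨_, rfl⟩
    have hlw : l = 4 * w + 1 := by rw [hl, hw]; ring
    have hw1 : 1 ≤ w := by linarith
    obtain ⟨a, ha⟩ : ∃ a : ℕ, a = ⌊(N : ℝ) / Real.exp w⌋₊ := ⟨_, rfl⟩
    have hz0 : 0 < Real.exp w := Real.exp_pos _
    have hz1 : 1 < Real.exp w := Real.one_lt_exp_iff.mpr (by linarith)
    have hzN : Real.exp w ≤ N := by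
      rw [← Real.exp_log hN0R]
      apply Real.exp_le_exp.mpr
      linarith
    have ha1 : 1 ≤ a := by
      rw [ha]
      apply Nat.le_floor
      rw [Nat.cast_one, le_div_iff₀ hz0]
      linarith
    have haR : (1 : ℝ) ≤ a := by exact_mod_cast ha1
    have haz : (a : ℝ) ≤ N / Real.exp w := by rw [ha]; exact Nat.floor_le (by positivity)
    have haz' : (N : ℝ) / Real.exp w < a + 1 := by rw [ha]; exact Nat.lt_floor_add_one _
    have haN : a < N := by
      have h1 : (N : ℝ) / Real.exp w < N := by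
        rw [div_lt_iff₀ hz0]
        nlinarith
      exact_mod_cast lt_of_le_of_lt haz h1
    have hla : l / 2 ≤ 1 + Real.log a := by
      have h1 := log_cut N a hN ha1 w hw1 haz'
      linarith
    have hGa : ∀ m : ℕ, a ≤ m → |G m| ≤ B / (l / 2) ^ (A + 1) := by
      intro m ham
      refine (hG m (ha1.trans ham)).trans ?_
      apply div_le_div_of_nonneg_left hB (by positivity)
      have h2 : Real.log a ≤ Real.log m :=
        Real.log_le_log (by linarith) (by exact_mod_cast ham)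
      exact pow_le_pow_left₀ (by positivity) (by linarith) _
    have hGd : ∀ m : ℕ, a ≤ m → m ≤ N → |G m - G a| ≤ 2 * (B / (l / 2) ^ (A + 1)) := by
      intro m ham _
      have h1 := hGa m ham
      have h2 := hGa a le_rfl
      have h3 := abs_sub (G m) (G a)
      linarith
    have hS1 := rrS1 w N a haN haz
    have hS2 := rrS2 w N a haN haz' _ hGd
    have hsplit : ∑ n ∈ Icc 1 N, (ArithmeticFunction.moebius n : ℝ) / n * rr ((N : ℝ) / n) =
        ∑ n ∈ Icc 1 a, (ArithmeticFunction.moebius n : ℝ) / n * rr ((N : ℝ) / n) +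
        ∑ n ∈ Ioc a N, (ArithmeticFunction.moebius n : ℝ) / n * rr ((N : ℝ) / n) := by
      rw [Icc_one, Icc_one]
      exact (Finset.sum_Ioc_consecutive _ (Nat.zero_le a) haN.le).symm
    have e1 : 2 / Real.exp w ≤ 2 * C1 / l ^ A := by
      rw [div_le_div_iff₀ hz0 hlA]
      have := pow_le_exp_quarter l w hl0.le hlw A
      rw [← hC1] at this
      linarith
    have e2 : 2 * (B / (l / 2) ^ (A + 1)) * (2 * w + 2) ≤ 2 ^ (A + 2) * B / l ^ A := by
      have h1 : 2 * w + 2 ≤ l := by linarith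
      have h2 : 0 ≤ 2 * (B / (l / 2) ^ (A + 1)) := by positivity
      refine (mul_le_mul_of_nonneg_left h1 h2).trans (le_of_eq ?_)
      rw [div_pow, pow_succ l, pow_succ (2 : ℝ) A, pow_add (2 : ℝ) A 2]
      field_simp
    have e3 : |eulerMascheroniConstant * G N| ≤ B / l ^ A := by
      have hg1 := Real.one_half_lt_eulerMascheroniConstant
      have hg2 := Real.eulerMascheroniConstant_lt_two_thirds
      rw [abs_mul, abs_of_pos (by linarith)]
      have h1 := hG N hN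
      rw [← hl] at h1
      have h2 : B / l ^ (A + 1) ≤ B / l ^ A := by
        apply div_le_div_of_nonneg_left hB hlA
        exact pow_le_pow_right₀ hl1 (by omega)
      have h0 := abs_nonneg (G N)
      nlinarith
    have e4 : (3 * 5 ^ A + (B + 2 * C1 + 2 ^ (A + 2) * B)) / l ^ A =
        3 * 5 ^ A / l ^ A + B / l ^ A + 2 * C1 / l ^ A + 2 ^ (A + 2) * B / l ^ A := by ring
    have e5 : 0 ≤ 3 * 5 ^ A / l ^ A := by positivity
    rw [Hn_eq hN, hsplit, e4]
    have f1 := abs_sub (-(eulerMascheroniConstant * G N))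
      (∑ n ∈ Icc 1 a, (ArithmeticFunction.moebius n : ℝ) / n * rr ((N : ℝ) / n) +
        ∑ n ∈ Ioc a N, (ArithmeticFunction.moebius n : ℝ) / n * rr ((N : ℝ) / n))
    have f2 := abs_add_le
      (∑ n ∈ Icc 1 a, (ArithmeticFunction.moebius n : ℝ) / n * rr ((N : ℝ) / n))
      (∑ n ∈ Ioc a N, (ArithmeticFunction.moebius n : ℝ) / n * rr ((N : ℝ) / n))
    rw [abs_neg] at f1
    linarith

/-- `∑_{d ≤ x} μ(d)/d log(x/d) = 1 + O((log x)^{-A})`, from the prime number theorem with error -/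
theorem mu_div_log_of (hP : PsiErr) (A : ℕ) : ∃ C : ℝ, ∀ x : ℝ, 2 ≤ x →
    |∑ d ∈ Finset.Icc 1 ⌊x⌋₊, (ArithmeticFunction.moebius d : ℝ) / d * Real.log (x / d) - 1| ≤
      C / (Real.log x) ^ A := by
  obtain ⟨B, hB, hG⟩ := G_bound hP A
  obtain ⟨C, hC, hH⟩ := Hn_bound hP A
  refine ⟨B + C, ?_⟩
  intro x hx
  have h1 : 1 ≤ ⌊x⌋₊ := Nat.le_floor (by simpa using (by linarith : (1 : ℝ) ≤ x))
  obtain ⟨h2, h3⟩ := log_floor_pow hx A
  have hNR : (1 : ℝ) ≤ (⌊x⌋₊ : ℝ) := by exact_mod_cast h1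
  have hNx : (⌊x⌋₊ : ℝ) ≤ x := Nat.floor_le (by linarith)
  have hxN : x < (⌊x⌋₊ : ℝ) + 1 := Nat.lt_floor_add_one x
  have h4 : ∑ d ∈ Finset.Icc 1 ⌊x⌋₊, (ArithmeticFunction.moebius d : ℝ) / d * Real.log (x / d) =
      Hn ⌊x⌋₊ + G ⌊x⌋₊ * Real.log (x / (⌊x⌋₊ : ℝ)) := by
    unfold Hn G
    rw [Finset.sum_mul, ← Finset.sum_add_distrib]
    apply Finset.sum_congr rfl
    intro d hd
    have hd1 : (1 : ℝ) ≤ d := by exact_mod_cast (mem_Icc.mp hd).1
    rw [Real.log_div (by linarith) (by linarith), Real.log_div (by linarith) (by linarith),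
      Real.log_div (by linarith) (by linarith)]
    ring
  have h5 : 0 ≤ Real.log (x / (⌊x⌋₊ : ℝ)) := by
    apply Real.log_nonneg
    rw [le_div_iff₀ (by linarith)]
    linarith
  have h6 : Real.log (x / (⌊x⌋₊ : ℝ)) ≤ 1 := by
    have h7 := Real.log_le_sub_one_of_pos (by positivity : (0 : ℝ) < x / (⌊x⌋₊ : ℝ))
    have h8 : x / (⌊x⌋₊ : ℝ) ≤ 2 := by
      rw [div_le_iff₀ (by linarith)]
      linarith
    linarith
  have h9 : |G ⌊x⌋₊ * Real.log (x / (⌊x⌋₊ : ℝ))| ≤ B / (Real.log x) ^ A := by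
    rw [abs_mul, abs_of_nonneg h5]
    have h10 := (hG _ h1).trans (div_le_div_of_nonneg_left hB h2 h3)
    have h11 := abs_nonneg (G ⌊x⌋₊)
    nlinarith
  have h12 := (hH _ h1).trans (div_le_div_of_nonneg_left hC h2 h3)
  rw [h4, add_div]
  have h13 := abs_add_le (Hn ⌊x⌋₊ - 1) (G ⌊x⌋₊ * Real.log (x / (⌊x⌋₊ : ℝ)))
  have h14 : Hn ⌊x⌋₊ + G ⌊x⌋₊ * Real.log (x / (⌊x⌋₊ : ℝ)) - 1 =
      Hn ⌊x⌋₊ - 1 + G ⌊x⌋₊ * Real.log (x / (⌊x⌋₊ : ℝ)) := by ring
  rw [h14]
  linarith

end Vale.Agent.P004H.H212
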